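import Mathlib

/-! # P163: the XY side (angles), and the rows GIN -/

namespace Vale.Agent.P163

open MeasureTheory

noncomputable instance instMeasurableSpaceCircle : MeasurableSpace Circle := borel Circle
instance instBorelSpaceCircle : BorelSpace Circle := ⟨rfl⟩

variable {V : Type*} [Fintype V]

/-- the cosine of the angle between two points of the circle -/
noncomputable def cc (z w : Circle) : ℝ := ((z : ℂ) * (starRingEnd ℂ) (w : ℂ)).re

/-- Haar probability measure on `Circle^V` -/
noncomputable def haarV (V : Type*) [Fintype V] : Measure (V → Circle) :=
  Measure.haarMeasure ⊤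

/-- the XY Hamiltonian -/
noncomputable def hXY (J : V → V → ℝ) (z : V → Circle) : ℝ := ∑ a, ∑ b, J a b * cc (z a) (z b)

/-- XY partition function -/
noncomputable def XZ (J : V → V → ℝ) : ℝ := ∫ z : V → Circle, Real.exp (hXY J z) ∂(haarV V)

/-- XY numerator -/
noncomputable def XN (J : V → V → ℝ) (x y : V) : ℝ :=
  ∫ z : V → Circle, cc (z x) (z y) * Real.exp (hXY J z) ∂(haarV V)

instance : SecondCountableTopology Circle := inferInstance
instance : BorelSpace (V → Circle) := inferInstance
instance : IsProbabilityMeasure (haarV V) := by
  constructor
  unfold haarV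
  have := Measure.haarMeasure_self (K₀ := (⊤ : TopologicalSpace.PositiveCompacts (V → Circle)))
  simpa using this
instance : (haarV V).IsHaarMeasure := by unfold haarV; infer_instance

end Vale.Agent.P163
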