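import Vale.Agent.P163.Defs
import Vale.Agent.P163.XY

/-! # P163: common definitions for the proof -/

namespace Vale.Agent.P163

open MeasureTheory

variable {V : Type*} [Fintype V]

/-- the action of a linear isometry of `R^n` on the sphere -/
noncomputable def act {n : ℕ} (R : E n ≃ₗᵢ[ℝ] E n) (s : S n) : S n := ⟨R (s : E n), by simp⟩

/-- the first two coordinates as a complex number -/
noncomputable def zet {k : ℕ} (v : E (k + 2)) : ℂ := ⟨v 0, v 1⟩

/-- the part of the inner product which comes from the other coordinates -/
noncomputable def rest {k : ℕ} (v w : E (k + 2)) : ℝ := ∑ i : Fin k, v i.succ.succ * w i.succ.succ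


end Vale.Agent.P163
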