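import Mathlib

/-!
# P163: the O(n) spin model on a finite graph

Spins are points of the unit sphere of `EuclideanSpace ℝ (Fin n)`, with the normalised
uniform measure.
-/

namespace Vale.Agent.P163

open MeasureTheory

/-- the space `R^n` -/
abbrev E (n : ℕ) := EuclideanSpace ℝ (Fin n)

/-- the unit sphere of `R^n`: the set of spin values -/
abbrev S (n : ℕ) := Metric.sphere (0 : E n) 1

/-- the normalised uniform measure on the unit sphere of `R^n` -/
noncomputable def omega (n : ℕ) : Measure (S n) :=
  ((volume : Measure (E n)).toSphere Set.univ)⁻¹ • (volume : Measure (E n)).toSphere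

variable {V : Type*} [Fintype V]

/-- the product of the uniform measures -/
noncomputable def Om (n : ℕ) (V : Type*) [Fintype V] : Measure (V → S n) :=
  Measure.pi fun _ => omega n

/-- the sum over all ordered pairs of sites of `J a b * (s a . s b)` -/
noncomputable def ham {n : ℕ} (J : V → V → ℝ) (s : V → S n) : ℝ :=
  ∑ a, ∑ b, J a b * inner ℝ (s a : E n) (s b : E n)

/-- the partition function -/
noncomputable def Zn (n : ℕ) (J : V → V → ℝ) : ℝ :=
  ∫ s : V → S n, Real.exp (ham J s) ∂(Om n V)

/-- the expectation of the function `f` of the configuration -/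
noncomputable def ev (n : ℕ) (J : V → V → ℝ) (f : (V → S n) → ℝ) : ℝ :=
  (∫ s : V → S n, f s * Real.exp (ham J s) ∂(Om n V)) / Zn n J

/-- the correlation `<s_x . s_y>` -/
noncomputable def corr (n : ℕ) (J : V → V → ℝ) (x y : V) : ℝ :=
  ev n J fun s => inner ℝ (s x : E n) (s y : E n)

end Vale.Agent.P163
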