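import Mathlib

/-!
# P163: Ginibre's inequality

Monotonicity in the couplings of plane rotator correlations, on a compact abelian group on which
doubling is surjective.
-/

open MeasureTheory Filter Topology Set

namespace Vale.Agent.P163.Gin

/-- Bounded measurable functions. -/
def BM {Ω : Type*} [MeasurableSpace Ω] (g : Ω → ℝ) : Prop :=
  Measurable g ∧ ∃ C, ∀ x, |g x| ≤ C

section
variable {Ω : Type*} [MeasurableSpace Ω] {f g : Ω → ℝ}

lemma BM.mul (hf : BM f) (hg : BM g) : BM (fun x => f x * g x) := by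
  obtain ⟨C, hC⟩ := hf.2
  obtain ⟨D, hD⟩ := hg.2
  refine ⟨hf.1.mul hg.1, C * D, fun x => ?_⟩
  rw [abs_mul]
  exact mul_le_mul (hC x) (hD x) (abs_nonneg _) ((abs_nonneg _).trans (hC x))

lemma BM.const (a : ℝ) : BM (fun _ : Ω => a) := ⟨measurable_const, |a|, fun _ => le_rfl⟩

lemma BM.add (hf : BM f) (hg : BM g) : BM (fun x => f x + g x) := by
  obtain ⟨C, hC⟩ := hf.2
  obtain ⟨D, hD⟩ := hg.2
  exact ⟨hf.1.add hg.1, C + D, fun x => (abs_add_le _ _).trans (add_le_add (hC x) (hD x))⟩

lemma BM.sum {ι : Type*} (s : Finset ι) {f : ι → Ω → ℝ} (hf : ∀ i, BM (f i)) :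
    BM (fun x => ∑ i ∈ s, f i x) := by
  classical
  induction s using Finset.induction_on with
  | empty => simpa using BM.const (Ω := Ω) 0
  | insert a s ha ih =>
    have := (hf a).add ih
    simpa [Finset.sum_insert ha] using this

lemma BM.pow (hf : BM f) (n : ℕ) : BM (fun x => f x ^ n) := by
  induction n with
  | zero => simpa using BM.const (Ω := Ω) 1
  | succ n ih =>
    have := ih.mul hf
    simpa [pow_succ] using this

lemma BM.exp (hf : BM f) : BM (fun x => Real.exp (f x)) := by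
  obtain ⟨C, hC⟩ := hf.2
  refine ⟨hf.1.exp, Real.exp C, fun x => ?_⟩
  rw [abs_of_pos (Real.exp_pos _)]
  exact Real.exp_le_exp.2 ((le_abs_self _).trans (hC x))

lemma BM.fst {Ω' : Type*} [MeasurableSpace Ω'] (hf : BM f) : BM (fun p : Ω × Ω' => f p.1) :=
  ⟨hf.1.comp measurable_fst, hf.2.imp fun _ h _ => h _⟩

lemma BM.snd {Ω' : Type*} [MeasurableSpace Ω'] (hf : BM f) : BM (fun p : Ω' × Ω => f p.2) :=
  ⟨hf.1.comp measurable_snd, hf.2.imp fun _ h _ => h _⟩

lemma BM.integrable (μ : Measure Ω) [IsFiniteMeasure μ] (hf : BM f) : Integrable f μ := by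
  obtain ⟨C, hC⟩ := hf.2
  exact Integrable.of_bound hf.1.aestronglyMeasurable C (Eventually.of_forall hC)

end

section
variable {Ω : Type*} [MeasurableSpace Ω] (μ : Measure Ω) [IsFiniteMeasure μ]
  {ι : Type*} [Fintype ι]

lemma psd_pow (a : ι → ℝ) (ha : ∀ i, 0 ≤ a i) (φ : ι → Ω → ℝ) (hφ : ∀ i, BM (φ i)) (n : ℕ) :
    ∀ g : Ω → ℝ, BM g →
      0 ≤ ∫ p : Ω × Ω, g p.1 * g p.2 * (∑ i, a i * (φ i p.1 * φ i p.2)) ^ n ∂(μ.prod μ) := by
  induction n with
  | zero =>
    intro g hg
    simp only [pow_zero, mul_one]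
    rw [integral_prod_mul]
    exact mul_self_nonneg _
  | succ n ih =>
    intro g hg
    have hK : BM (fun p : Ω × Ω => ∑ i, a i * (φ i p.1 * φ i p.2)) :=
      BM.sum _ fun i => (BM.const _).mul ((hφ i).fst.mul (hφ i).snd)
    have h1 : (fun p : Ω × Ω => g p.1 * g p.2 * (∑ i, a i * (φ i p.1 * φ i p.2)) ^ (n + 1))
        = fun p => ∑ i, a i * ((g p.1 * φ i p.1) * (g p.2 * φ i p.2)
            * (∑ i, a i * (φ i p.1 * φ i p.2)) ^ n) := by
      funext p
      rw [pow_succ, Finset.mul_sum, Finset.mul_sum]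
      refine Finset.sum_congr rfl fun i _ => ?_
      ring
    rw [h1, integral_finsetSum]
    · refine Finset.sum_nonneg fun i _ => ?_
      rw [integral_const_mul]
      exact mul_nonneg (ha i) (ih (fun x => g x * φ i x) (hg.mul (hφ i)))
    · intro i _
      exact ((BM.const (a i)).mul (((hg.mul (hφ i)).fst.mul (hg.mul (hφ i)).snd).mul
        (hK.pow n))).integrable _

lemma psd_exp (a : ι → ℝ) (ha : ∀ i, 0 ≤ a i) (φ : ι → Ω → ℝ) (hφ : ∀ i, BM (φ i))
    (g : Ω → ℝ) (hg : BM g) :
    0 ≤ ∫ p : Ω × Ω, g p.1 * g p.2 * Real.exp (∑ i, a i * (φ i p.1 * φ i p.2)) ∂(μ.prod μ) := by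
  have hK : BM (fun p : Ω × Ω => ∑ i, a i * (φ i p.1 * φ i p.2)) :=
    BM.sum _ fun i => (BM.const _).mul ((hφ i).fst.mul (hφ i).snd)
  have hgg : BM (fun p : Ω × Ω => g p.1 * g p.2) := hg.fst.mul hg.snd
  obtain ⟨C, hC⟩ := hK.2
  obtain ⟨D, hD⟩ := hgg.2
  have key : ∀ n : ℕ, 0 ≤ ∫ p : Ω × Ω, g p.1 * g p.2 *
      (1 + (∑ i, a i * (φ i p.1 * φ i p.2)) / n) ^ n ∂(μ.prod μ) := by
    intro n
    have h := psd_pow μ (ι := Option ι) (fun o => o.elim 1 (fun i => a i / n))
      (fun o => by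
        cases o with
        | none => exact zero_le_one
        | some i => exact div_nonneg (ha i) (Nat.cast_nonneg n))
      (fun o => o.elim (fun _ => 1) φ)
      (fun o => by
        cases o with
        | none => exact BM.const 1
        | some i => exact hφ i) n g hg
    refine h.trans_eq (integral_congr_ae (Eventually.of_forall fun p => ?_))
    simp only [Fintype.sum_option, Option.elim_none, Option.elim_some, mul_one]
    congr 3
    rw [Finset.sum_div]
    exact Finset.sum_congr rfl fun i _ => by ring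
  have hlim : Tendsto (fun n : ℕ => ∫ p : Ω × Ω, g p.1 * g p.2 *
      (1 + (∑ i, a i * (φ i p.1 * φ i p.2)) / n) ^ n ∂(μ.prod μ)) atTop
      (𝓝 (∫ p : Ω × Ω, g p.1 * g p.2 * Real.exp (∑ i, a i * (φ i p.1 * φ i p.2))
        ∂(μ.prod μ))) := by
    refine tendsto_integral_of_dominated_convergence (fun _ => D * Real.exp C) ?_
      (integrable_const _) ?_ ?_
    · intro n
      have : BM (fun p : Ω × Ω => g p.1 * g p.2 *
          (1 + (∑ i, a i * (φ i p.1 * φ i p.2)) / n) ^ n) := by
        have h1 := hgg.mul (((BM.const (Ω := Ω × Ω) 1).add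
          (hK.mul (BM.const ((n : ℝ)⁻¹)))).pow n)
        simpa [div_eq_mul_inv] using h1
      exact this.1.aestronglyMeasurable
    · intro n
      refine Eventually.of_forall fun p => ?_
      rw [Real.norm_eq_abs, abs_mul, abs_pow]
      refine mul_le_mul (hD p) ?_ (pow_nonneg (abs_nonneg _) _) ((abs_nonneg _).trans (hD p))
      rcases Nat.eq_zero_or_pos n with rfl | hn
      · simpa using (abs_nonneg _).trans (hC p)
      have hn' : (0 : ℝ) < n := by exact_mod_cast hn
      have h2 : |1 + (∑ i, a i * (φ i p.1 * φ i p.2)) / n| ≤ Real.exp (C / n) := by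
        calc |1 + (∑ i, a i * (φ i p.1 * φ i p.2)) / n|
            ≤ |(1 : ℝ)| + |(∑ i, a i * (φ i p.1 * φ i p.2)) / n| := abs_add_le _ _
          _ ≤ 1 + C / n := by
              rw [abs_one, abs_div, abs_of_pos hn']
              gcongr
              exact hC p
          _ ≤ Real.exp (C / n) := by
              have := Real.add_one_le_exp (C / n)
              linarith
      calc |1 + (∑ i, a i * (φ i p.1 * φ i p.2)) / n| ^ n ≤ Real.exp (C / n) ^ n := by
            gcongr
        _ = Real.exp C := by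
            rw [← Real.exp_nat_mul]
            congr 1
            field_simp
    · refine Eventually.of_forall fun p => ?_
      exact (Real.tendsto_one_add_div_pow_exp _).const_mul _
  exact ge_of_tendsto' hlim key

end

section
variable {G : Type*} [AddCommGroup G] [TopologicalSpace G] [IsTopologicalAddGroup G]
  [CompactSpace G] [SecondCountableTopology G] [MeasurableSpace G] [BorelSpace G]

lemma bm_of_continuous {f : G → ℝ} (hf : Continuous f) : BM f := by
  refine ⟨hf.measurable, ?_⟩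
  obtain ⟨C, hC⟩ := (isCompact_range hf).isBounded.exists_norm_le
  exact ⟨C, fun x => hC _ ⟨x, rfl⟩⟩

/-- `(u, v) ↦ (u - v, u + v)`. -/
def hom (G : Type*) [AddCommGroup G] : G × G →+ G × G where
  toFun p := (p.1 - p.2, p.1 + p.2)
  map_zero' := by simp
  map_add' p q := by
    ext
    · simp only [Prod.fst_add, Prod.snd_add]; abel
    · simp only [Prod.fst_add, Prod.snd_add]; abel

lemma hom_mp (μ : Measure G) [μ.IsAddHaarMeasure] (hsq : Function.Surjective (fun x : G => x + x)) :
    MeasurePreserving (hom G) (μ.prod μ) (μ.prod μ) := by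
  refine AddMonoidHom.measurePreserving ?_ ?_ rfl
  · exact (continuous_fst.sub continuous_snd).prodMk (continuous_fst.add continuous_snd)
  · rintro ⟨a, b⟩
    obtain ⟨v, hv⟩ := hsq (b - a)
    refine ⟨(a + v, v), ?_⟩
    have hv' : v + v = b - a := hv
    refine Prod.ext ?_ ?_
    · show a + v - v = a
      abel
    · show a + v + v = b
      rw [add_assoc, hv']
      abel

/-- **Ginibre's inequality** (monotonicity in the couplings). -/
theorem gin (μ : Measure G) [μ.IsAddHaarMeasure]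
    (hsq : Function.Surjective (fun x : G => x + x)) {E : Type*} [Fintype E]
    (c s : E → G → ℝ) (hc : ∀ e, Continuous (c e)) (hs : ∀ e, Continuous (s e))
    (hsub : ∀ e u v, c e (u - v) = c e u * c e v + s e u * s e v)
    (hadd : ∀ e u v, c e (u + v) = c e u * c e v - s e u * s e v)
    (c₀ s₀ : G → ℝ) (hc₀ : Continuous c₀) (hs₀ : Continuous s₀)
    (hsub₀ : ∀ u v, c₀ (u - v) = c₀ u * c₀ v + s₀ u * s₀ v)
    (hadd₀ : ∀ u v, c₀ (u + v) = c₀ u * c₀ v - s₀ u * s₀ v)
    (J J' : E → ℝ) (hJ : ∀ e, |J e| ≤ J' e) :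
    (∫ x, c₀ x * Real.exp (∑ e, J e * c e x) ∂μ) * (∫ x, Real.exp (∑ e, J' e * c e x) ∂μ)
      ≤ (∫ x, c₀ x * Real.exp (∑ e, J' e * c e x) ∂μ)
        * (∫ x, Real.exp (∑ e, J e * c e x) ∂μ) := by
  have hc' : ∀ e, BM (c e) := fun e => bm_of_continuous (hc e)
  have hs' : ∀ e, BM (s e) := fun e => bm_of_continuous (hs e)
  have hc0' : BM c₀ := bm_of_continuous hc₀
  have hs0' : BM s₀ := bm_of_continuous hs₀
  have hH : ∀ K : E → ℝ, BM (fun x => Real.exp (∑ e, K e * c e x)) := fun K =>
    (BM.sum _ fun e => (BM.const (K e)).mul (hc' e)).exp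
  rw [← sub_nonneg]
  have h1 : (∫ x, c₀ x * Real.exp (∑ e, J' e * c e x) ∂μ)
        * (∫ x, Real.exp (∑ e, J e * c e x) ∂μ)
      = ∫ p : G × G, (c₀ p.1 * Real.exp (∑ e, J' e * c e p.1)) * Real.exp (∑ e, J e * c e p.2)
          ∂(μ.prod μ) :=
    (integral_prod_mul (μ := μ) (ν := μ) (fun x => c₀ x * Real.exp (∑ e, J' e * c e x))
      (fun x => Real.exp (∑ e, J e * c e x))).symm
  have h2 : (∫ x, c₀ x * Real.exp (∑ e, J e * c e x) ∂μ)
        * (∫ x, Real.exp (∑ e, J' e * c e x) ∂μ)
      = ∫ p : G × G, Real.exp (∑ e, J' e * c e p.1) * (c₀ p.2 * Real.exp (∑ e, J e * c e p.2))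
          ∂(μ.prod μ) := by
    rw [mul_comm]
    exact (integral_prod_mul (μ := μ) (ν := μ) (fun x => Real.exp (∑ e, J' e * c e x))
      (fun x => c₀ x * Real.exp (∑ e, J e * c e x))).symm
  rw [h1, h2, ← integral_sub
    ((hc0'.mul (hH J')).fst.mul (hH J).snd |>.integrable _)
    ((hH J').fst.mul (hc0'.mul (hH J)).snd |>.integrable _)]
  have hcont : Continuous (fun p : G × G =>
      c₀ p.1 * Real.exp (∑ e, J' e * c e p.1) * Real.exp (∑ e, J e * c e p.2) -
        Real.exp (∑ e, J' e * c e p.1) * (c₀ p.2 * Real.exp (∑ e, J e * c e p.2))) := by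
    fun_prop
  rw [← (hom_mp μ hsq).map_eq, integral_map (hom_mp μ hsq).measurable.aemeasurable
    hcont.aestronglyMeasurable]
  have h3 := psd_exp μ (ι := E ⊕ E) (Sum.elim (fun e => J' e + J e) (fun e => J' e - J e))
    (by
      rintro (e | e)
      · have := neg_abs_le (J e)
        have := hJ e
        simp only [Sum.elim_inl]
        linarith
      · have := le_abs_self (J e)
        have := hJ e
        simp only [Sum.elim_inr]
        linarith) (Sum.elim c s) (by rintro (e | e) <;> simp [hc', hs']) s₀ hs0'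
  refine (mul_nonneg (zero_le_two (α := ℝ)) h3).trans_eq ?_
  rw [← integral_const_mul]
  refine integral_congr_ae (Eventually.of_forall fun p => ?_)
  show _ = c₀ (p.1 - p.2) * Real.exp (∑ e, J' e * c e (p.1 - p.2))
      * Real.exp (∑ e, J e * c e (p.1 + p.2)) -
        Real.exp (∑ e, J' e * c e (p.1 - p.2)) * (c₀ (p.1 + p.2)
          * Real.exp (∑ e, J e * c e (p.1 + p.2)))
  have h4 : Real.exp (∑ i, Sum.elim (fun e => J' e + J e) (fun e => J' e - J e) i *
        (Sum.elim c s i p.1 * Sum.elim c s i p.2))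
      = Real.exp (∑ e, J' e * c e (p.1 - p.2)) * Real.exp (∑ e, J e * c e (p.1 + p.2)) := by
    rw [← Real.exp_add]
    congr 1
    rw [Fintype.sum_sum_type, ← Finset.sum_add_distrib, ← Finset.sum_add_distrib]
    refine Finset.sum_congr rfl fun e _ => ?_
    simp only [Sum.elim_inl, Sum.elim_inr]
    rw [hsub, hadd]
    ring
  simp only [h4]
  rw [hsub₀, hadd₀]
  ring

end

end Vale.Agent.P163.Gin
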