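import Mathlib
import Vale.Agent.P163.GinGen
import Vale.Agent.P163.XY

/-!
# P163: Ginibre's inequality on `V → Circle`
-/

open MeasureTheory Filter Topology Set

namespace Vale.Agent.P163.Gin

section
variable {G : Type*} [CommGroup G] [TopologicalSpace G] [IsTopologicalGroup G]
  [CompactSpace G] [SecondCountableTopology G] [MeasurableSpace G] [BorelSpace G]

omit [CommGroup G] [IsTopologicalGroup G] [SecondCountableTopology G] in
lemma bm_of_continuous' {f : G → ℝ} (hf : Continuous f) : BM f := by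
  refine ⟨hf.measurable, ?_⟩
  obtain ⟨C, hC⟩ := (isCompact_range hf).isBounded.exists_norm_le
  exact ⟨C, fun x => hC _ ⟨x, rfl⟩⟩

/-- `(u, v) ↦ (u / v, u * v)`. -/
def homM (G : Type*) [CommGroup G] : G × G →* G × G where
  toFun p := (p.1 / p.2, p.1 * p.2)
  map_one' := by simp
  map_mul' p q := by
    refine Prod.ext ?_ ?_
    · exact mul_div_mul_comm p.1 q.1 p.2 q.2
    · exact mul_mul_mul_comm p.1 q.1 p.2 q.2

lemma homM_mp (μ : Measure G) [μ.IsHaarMeasure] (hsq : Function.Surjective (fun x : G => x * x)) :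
    MeasurePreserving (homM G) (μ.prod μ) (μ.prod μ) := by
  refine MonoidHom.measurePreserving ?_ ?_ rfl
  · exact (continuous_fst.div' continuous_snd).prodMk (continuous_fst.mul continuous_snd)
  · rintro ⟨a, b⟩
    obtain ⟨v, hv⟩ := hsq (b / a)
    refine ⟨(a * v, v), ?_⟩
    have hv' : v * v = b / a := hv
    refine Prod.ext ?_ ?_
    · show a * v / v = a
      exact mul_div_cancel_right a v
    · show a * v * v = b
      rw [mul_assoc, hv']
      exact mul_div_cancel a b

/-- **Ginibre's inequality** (monotonicity in the couplings). -/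
theorem ginM (μ : Measure G) [μ.IsHaarMeasure]
    (hsq : Function.Surjective (fun x : G => x * x)) {E : Type*} [Fintype E]
    (c s : E → G → ℝ) (hc : ∀ e, Continuous (c e)) (hs : ∀ e, Continuous (s e))
    (hsub : ∀ e u v, c e (u / v) = c e u * c e v + s e u * s e v)
    (hadd : ∀ e u v, c e (u * v) = c e u * c e v - s e u * s e v)
    (c₀ s₀ : G → ℝ) (hc₀ : Continuous c₀) (hs₀ : Continuous s₀)
    (hsub₀ : ∀ u v, c₀ (u / v) = c₀ u * c₀ v + s₀ u * s₀ v)
    (hadd₀ : ∀ u v, c₀ (u * v) = c₀ u * c₀ v - s₀ u * s₀ v)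
    (J J' : E → ℝ) (hJ : ∀ e, |J e| ≤ J' e) :
    (∫ x, c₀ x * Real.exp (∑ e, J e * c e x) ∂μ) * (∫ x, Real.exp (∑ e, J' e * c e x) ∂μ)
      ≤ (∫ x, c₀ x * Real.exp (∑ e, J' e * c e x) ∂μ)
        * (∫ x, Real.exp (∑ e, J e * c e x) ∂μ) := by
  have hc' : ∀ e, BM (c e) := fun e => bm_of_continuous' (hc e)
  have hs' : ∀ e, BM (s e) := fun e => bm_of_continuous' (hs e)
  have hc0' : BM c₀ := bm_of_continuous' hc₀
  have hs0' : BM s₀ := bm_of_continuous' hs₀
  have hH : ∀ K : E → ℝ, BM (fun x => Real.exp (∑ e, K e * c e x)) := fun K =>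
    (BM.sum _ fun e => (BM.const (K e)).mul (hc' e)).exp
  rw [← sub_nonneg]
  have h1 : (∫ x, c₀ x * Real.exp (∑ e, J' e * c e x) ∂μ)
        * (∫ x, Real.exp (∑ e, J e * c e x) ∂μ)
      = ∫ p : G × G, (c₀ p.1 * Real.exp (∑ e, J' e * c e p.1)) * Real.exp (∑ e, J e * c e p.2)
          ∂(μ.prod μ) :=
    (integral_prod_mul (μ := μ) (ν := μ) (fun x => c₀ x * Real.exp (∑ e, J' e * c e x))
      (fun x => Real.exp (∑ e, J e * c e x))).symm
  have h2 : (∫ x, c₀ x * Real.exp (∑ e, J e * c e x) ∂μ)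
        * (∫ x, Real.exp (∑ e, J' e * c e x) ∂μ)
      = ∫ p : G × G, Real.exp (∑ e, J' e * c e p.1) * (c₀ p.2 * Real.exp (∑ e, J e * c e p.2))
          ∂(μ.prod μ) := by
    rw [mul_comm]
    exact (integral_prod_mul (μ := μ) (ν := μ) (fun x => Real.exp (∑ e, J' e * c e x))
      (fun x => c₀ x * Real.exp (∑ e, J e * c e x))).symm
  rw [h1, h2, ← integral_sub
    ((hc0'.mul (hH J')).fst.mul (hH J).snd |>.integrable _)
    ((hH J').fst.mul (hc0'.mul (hH J)).snd |>.integrable _)]
  have hcont : Continuous (fun p : G × G =>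
      c₀ p.1 * Real.exp (∑ e, J' e * c e p.1) * Real.exp (∑ e, J e * c e p.2) -
        Real.exp (∑ e, J' e * c e p.1) * (c₀ p.2 * Real.exp (∑ e, J e * c e p.2))) := by
    fun_prop
  rw [← (homM_mp μ hsq).map_eq, integral_map (homM_mp μ hsq).measurable.aemeasurable
    hcont.aestronglyMeasurable]
  have h3 := psd_exp μ (ι := E ⊕ E) (Sum.elim (fun e => J' e + J e) (fun e => J' e - J e))
    (by
      rintro (e | e)
      · have := neg_abs_le (J e)
        have := hJ e
        simp only [Sum.elim_inl]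
        linarith
      · have := le_abs_self (J e)
        have := hJ e
        simp only [Sum.elim_inr]
        linarith) (Sum.elim c s) (by rintro (e | e) <;> simp [hc', hs']) s₀ hs0'
  refine (mul_nonneg (zero_le_two (α := ℝ)) h3).trans_eq ?_
  rw [← integral_const_mul]
  refine integral_congr_ae (Eventually.of_forall fun p => ?_)
  show _ = c₀ (p.1 / p.2) * Real.exp (∑ e, J' e * c e (p.1 / p.2))
      * Real.exp (∑ e, J e * c e (p.1 * p.2)) -
        Real.exp (∑ e, J' e * c e (p.1 / p.2)) * (c₀ (p.1 * p.2)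
          * Real.exp (∑ e, J e * c e (p.1 * p.2)))
  have h4 : Real.exp (∑ i, Sum.elim (fun e => J' e + J e) (fun e => J' e - J e) i *
        (Sum.elim c s i p.1 * Sum.elim c s i p.2))
      = Real.exp (∑ e, J' e * c e (p.1 / p.2)) * Real.exp (∑ e, J e * c e (p.1 * p.2)) := by
    rw [← Real.exp_add]
    congr 1
    rw [Fintype.sum_sum_type, ← Finset.sum_add_distrib, ← Finset.sum_add_distrib]
    refine Finset.sum_congr rfl fun e _ => ?_
    simp only [Sum.elim_inl, Sum.elim_inr]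
    rw [hsub, hadd]
    ring
  simp only [h4]
  rw [hsub₀, hadd₀]
  ring

/-- First Ginibre inequality. -/
theorem ginM_nonneg (μ : Measure G) [μ.IsHaarMeasure]
    (hsq : Function.Surjective (fun x : G => x * x)) {E : Type*} [Fintype E]
    (c s : E → G → ℝ) (hc : ∀ e, Continuous (c e)) (hs : ∀ e, Continuous (s e))
    (hsub : ∀ e u v, c e (u / v) = c e u * c e v + s e u * s e v)
    (c₀ s₀ : G → ℝ) (hc₀ : Continuous c₀) (hs₀ : Continuous s₀)
    (hsub₀ : ∀ u v, c₀ (u / v) = c₀ u * c₀ v + s₀ u * s₀ v)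
    (J : E → ℝ) (hJ : ∀ e, 0 ≤ J e) :
    0 ≤ ∫ x, c₀ x * Real.exp (∑ e, J e * c e x) ∂μ := by
  have hc' : ∀ e, BM (c e) := fun e => bm_of_continuous' (hc e)
  have hs' : ∀ e, BM (s e) := fun e => bm_of_continuous' (hs e)
  have hc0' : BM c₀ := bm_of_continuous' hc₀
  have hs0' : BM s₀ := bm_of_continuous' hs₀
  have hpos : 0 < ∫ _ : G, (1 : ℝ) ∂μ := by
    rw [integral_const, smul_eq_mul, mul_one]
    exact measureReal_univ_pos
  have h1 : (∫ x, c₀ x * Real.exp (∑ e, J e * c e x) ∂μ) * (∫ _ : G, (1 : ℝ) ∂μ)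
      = ∫ p : G × G, (c₀ p.1 * Real.exp (∑ e, J e * c e p.1)) * 1 ∂(μ.prod μ) :=
    (integral_prod_mul (μ := μ) (ν := μ) (fun x => c₀ x * Real.exp (∑ e, J e * c e x))
      (fun _ => (1 : ℝ))).symm
  refine nonneg_of_mul_nonneg_left (b := ∫ _ : G, (1 : ℝ) ∂μ) ?_ hpos
  rw [h1]
  have hcont : Continuous (fun p : G × G =>
      c₀ p.1 * Real.exp (∑ e, J e * c e p.1) * 1) := by
    fun_prop
  rw [← (homM_mp μ hsq).map_eq, integral_map (homM_mp μ hsq).measurable.aemeasurable
    hcont.aestronglyMeasurable]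
  have hJ2 : ∀ i : E ⊕ E, 0 ≤ Sum.elim J J i := by rintro (e | e) <;> simp [hJ]
  have hφ : ∀ i : E ⊕ E, BM (Sum.elim c s i) := by rintro (e | e) <;> simp [hc', hs']
  have h3 := psd_exp μ (ι := E ⊕ E) (Sum.elim J J) hJ2 (Sum.elim c s) hφ s₀ hs0'
  have h3' := psd_exp μ (ι := E ⊕ E) (Sum.elim J J) hJ2 (Sum.elim c s) hφ c₀ hc0'
  have hK : BM (fun p : G × G => Real.exp (∑ i, Sum.elim J J i *
        (Sum.elim c s i p.1 * Sum.elim c s i p.2))) :=
    (BM.sum _ fun i => (BM.const _).mul ((hφ i).fst.mul (hφ i).snd)).exp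
  refine (add_nonneg h3' h3).trans_eq ?_
  rw [← integral_add (((hc0'.fst.mul hc0'.snd).mul hK).integrable _)
    (((hs0'.fst.mul hs0'.snd).mul hK).integrable _)]
  refine integral_congr_ae (Eventually.of_forall fun p => ?_)
  show _ = c₀ (p.1 / p.2) * Real.exp (∑ e, J e * c e (p.1 / p.2)) * 1
  have h4 : Real.exp (∑ i, Sum.elim J J i *
        (Sum.elim c s i p.1 * Sum.elim c s i p.2))
      = Real.exp (∑ e, J e * c e (p.1 / p.2)) := by
    congr 1
    rw [Fintype.sum_sum_type, ← Finset.sum_add_distrib]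
    refine Finset.sum_congr rfl fun e _ => ?_
    simp only [Sum.elim_inl, Sum.elim_inr]
    rw [hsub]
    ring
  simp only [h4]
  rw [hsub₀]
  ring

end

end Vale.Agent.P163.Gin

namespace Vale.Agent.P163

open Gin

variable {V : Type*} [Fintype V]

/-- The sine of the angle between two points of the circle. -/
noncomputable def ss (z w : Circle) : ℝ := ((z : ℂ) * (starRingEnd ℂ) (w : ℂ)).im

lemma circle_re_div (z w : Circle) : ((z / w : Circle) : ℂ).re = z.1.re * w.1.re + z.1.im * w.1.im := by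
  rw [Circle.coe_div, div_eq_mul_inv, ← Circle.coe_inv, Circle.coe_inv_eq_conj]
  simp [Complex.mul_re]

lemma cc_eq (z w : Circle) : cc z w = ((z / w : Circle) : ℂ).re := by
  rw [cc, Circle.coe_div, div_eq_mul_inv, ← Circle.coe_inv, Circle.coe_inv_eq_conj]

lemma ss_eq (z w : Circle) : ss z w = ((z / w : Circle) : ℂ).im := by
  rw [ss, Circle.coe_div, div_eq_mul_inv, ← Circle.coe_inv, Circle.coe_inv_eq_conj]

lemma cc_sub (x y : V) (u v : V → Circle) :
    cc ((u / v) x) ((u / v) y) = cc (u x) (u y) * cc (v x) (v y) + ss (u x) (u y) * ss (v x) (v y) := by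
  have h : (u / v) x / (u / v) y = (u x / u y) / (v x / v y) := by
    simp only [Pi.div_apply]
    exact div_div_div_comm _ _ _ _
  rw [cc_eq, h, circle_re_div, cc_eq, cc_eq, ss_eq, ss_eq]

lemma cc_add (x y : V) (u v : V → Circle) :
    cc ((u * v) x) ((u * v) y) = cc (u x) (u y) * cc (v x) (v y) - ss (u x) (u y) * ss (v x) (v y) := by
  have h : (u * v) x / (u * v) y = (u x / u y) * (v x / v y) := by
    simp only [Pi.mul_apply]
    exact mul_div_mul_comm _ _ _ _
  rw [cc_eq, h, Circle.coe_mul, Complex.mul_re, cc_eq, cc_eq, ss_eq, ss_eq]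

lemma cc_cont (x y : V) : Continuous fun z : V → Circle => cc (z x) (z y) := by
  unfold cc
  fun_prop

lemma ss_cont (x y : V) : Continuous fun z : V → Circle => ss (z x) (z y) := by
  unfold ss
  fun_prop

lemma sq_surj : Function.Surjective (fun x : V → Circle => x * x) := by
  intro b
  refine ⟨fun v => Circle.exp (Complex.arg (b v : ℂ) / 2), ?_⟩
  funext v
  show Circle.exp (Complex.arg (b v : ℂ) / 2) * Circle.exp (Complex.arg (b v : ℂ) / 2) = b v
  rw [← Circle.exp_add, add_halves, Circle.exp_arg]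

lemma hXY_eq (J : V → V → ℝ) (z : V → Circle) :
    hXY J z = ∑ e : V × V, J e.1 e.2 * cc (z e.1) (z e.2) := by
  rw [hXY, Fintype.sum_prod_type]

theorem gin (J J' : V → V → ℝ) (h0 : ∀ a b, 0 ≤ J a b) (h : ∀ a b, J a b ≤ J' a b) (x y : V) :
    XN J x y * XZ J' ≤ XN J' x y * XZ J := by
  have := ginM (haarV V) sq_surj (E := V × V) (fun e z => cc (z e.1) (z e.2))
    (fun e z => ss (z e.1) (z e.2)) (fun e => cc_cont _ _) (fun e => ss_cont _ _)
    (fun e u v => cc_sub _ _ u v) (fun e u v => cc_add _ _ u v)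
    (fun z => cc (z x) (z y)) (fun z => ss (z x) (z y)) (cc_cont _ _) (ss_cont _ _)
    (fun u v => cc_sub _ _ u v) (fun u v => cc_add _ _ u v)
    (fun e => J e.1 e.2) (fun e => J' e.1 e.2)
    (fun e => by rw [abs_of_nonneg (h0 _ _)]; exact h _ _)
  simpa only [XN, XZ, hXY_eq] using this

theorem gin0 (J : V → V → ℝ) (h0 : ∀ a b, 0 ≤ J a b) (x y : V) : 0 ≤ XN J x y := by
  have := ginM_nonneg (haarV V) sq_surj (E := V × V) (fun e z => cc (z e.1) (z e.2))
    (fun e z => ss (z e.1) (z e.2)) (fun e => cc_cont _ _) (fun e => ss_cont _ _)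
    (fun e u v => cc_sub _ _ u v)
    (fun z => cc (z x) (z y)) (fun z => ss (z x) (z y)) (cc_cont _ _) (ss_cont _ _)
    (fun u v => cc_sub _ _ u v)
    (fun e => J e.1 e.2) (fun e => h0 _ _)
  simpa only [XN, hXY_eq] using this

theorem XZ_pos (J : V → V → ℝ) : 0 < XZ J := by
  unfold XZ
  refine integral_exp_pos ?_
  have hc : Continuous fun z : V → Circle => hXY J z := by
    unfold hXY
    exact continuous_finsetSum _ fun a _ => continuous_finsetSum _ fun b _ =>
      continuous_const.mul (cc_cont a b)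
  exact (bm_of_continuous' (Real.continuous_exp.comp hc)).integrable _

end Vale.Agent.P163
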