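import Mathlib
import Vale.Agent.P163.GinGen

/-!
# P163: Ginibre's inequality for plane rotators on a finite graph
-/

open MeasureTheory Filter Topology Set

namespace Vale.Agent.P163.Gin

/-- The cosine on the circle. -/
noncomputable def co : AddCircle (2 * Real.pi) → ℝ := Real.Angle.cos
/-- The sine on the circle. -/
noncomputable def si : AddCircle (2 * Real.pi) → ℝ := Real.Angle.sin

lemma co_coe (x : ℝ) : co (x : AddCircle (2 * Real.pi)) = Real.cos x := rfl
lemma si_coe (x : ℝ) : si (x : AddCircle (2 * Real.pi)) = Real.sin x := rfl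
lemma co_add (a b : AddCircle (2 * Real.pi)) : co (a + b) = co a * co b - si a * si b :=
  Real.Angle.cos_add a b
lemma co_neg (a : AddCircle (2 * Real.pi)) : co (-a) = co a := Real.Angle.cos_neg a
lemma si_neg (a : AddCircle (2 * Real.pi)) : si (-a) = - si a := Real.Angle.sin_neg a
lemma co_cont : Continuous co := Real.Angle.continuous_cos
lemma si_cont : Continuous si := Real.Angle.continuous_sin

lemma double_surj {V : Type*} : Function.Surjective
    (fun x : V → AddCircle (2 * Real.pi) => x + x) := by
  intro b
  refine ⟨fun v => (((Quotient.out (b v) : ℝ) / 2 : ℝ) : AddCircle (2 * Real.pi)), ?_⟩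
  funext v
  show (((Quotient.out (b v) : ℝ) / 2 : ℝ) : AddCircle (2 * Real.pi))
    + (((Quotient.out (b v) : ℝ) / 2 : ℝ) : AddCircle (2 * Real.pi)) = b v
  rw [← AddCircle.coe_add, add_halves]
  exact Quotient.out_eq (b v)

section
variable [Fact (0 < 2 * Real.pi)]

/-- Plane rotators on `V → AddCircle (2 π)`. -/
theorem gin_xy {V E : Type*} [Fintype V] [Fintype E] (x y : E → V) (a b : V)
    (J J' : E → ℝ) (hJ : ∀ e, |J e| ≤ J' e) :
    (∫ t : V → AddCircle (2 * Real.pi), co (t a - t b)
        * Real.exp (∑ e, J e * co (t (x e) - t (y e))))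
      * (∫ t : V → AddCircle (2 * Real.pi),
          Real.exp (∑ e, J' e * co (t (x e) - t (y e))))
      ≤ (∫ t : V → AddCircle (2 * Real.pi), co (t a - t b)
          * Real.exp (∑ e, J' e * co (t (x e) - t (y e))))
        * (∫ t : V → AddCircle (2 * Real.pi),
            Real.exp (∑ e, J e * co (t (x e) - t (y e)))) := by
  have hcont : ∀ p q : V, Continuous fun t : V → AddCircle (2 * Real.pi) =>
      co (t p - t q) := fun p q =>
    co_cont.comp ((continuous_apply p).sub (continuous_apply q))
  have hcont' : ∀ p q : V, Continuous fun t : V → AddCircle (2 * Real.pi) =>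
      si (t p - t q) := fun p q =>
    si_cont.comp ((continuous_apply p).sub (continuous_apply q))
  have hsub : ∀ (p q : V) (u v : V → AddCircle (2 * Real.pi)),
      co ((u - v) p - (u - v) q)
        = co (u p - u q) * co (v p - v q)
          + si (u p - u q) * si (v p - v q) := by
    intro p q u v
    have h : (u - v) p - (u - v) q = (u p - u q) + -(v p - v q) := by
      simp only [Pi.sub_apply]; abel
    rw [h, co_add, co_neg, si_neg]
    ring
  have hadd : ∀ (p q : V) (u v : V → AddCircle (2 * Real.pi)),
      co ((u + v) p - (u + v) q)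
        = co (u p - u q) * co (v p - v q)
          - si (u p - u q) * si (v p - v q) := by
    intro p q u v
    have h : (u + v) p - (u + v) q = (u p - u q) + (v p - v q) := by
      simp only [Pi.add_apply]; abel
    rw [h]
    exact co_add (u p - u q) (v p - v q)
  exact gin (G := V → AddCircle (2 * Real.pi)) volume double_surj
    (fun e t => co (t (x e) - t (y e))) (fun e t => si (t (x e) - t (y e)))
    (fun e => hcont _ _) (fun e => hcont' _ _) (fun e u v => hsub _ _ u v)
    (fun e u v => hadd _ _ u v)
    (fun t => co (t a - t b)) (fun t => si (t a - t b))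
    (hcont _ _) (hcont' _ _) (fun u v => hsub _ _ u v) (fun u v => hadd _ _ u v) J J' hJ

/-- Integrals over the box `(-π, π]^V` are integrals over the torus. -/
lemma integral_box {V : Type*} [Fintype V] (F : (V → AddCircle (2 * Real.pi)) → ℝ)
    (hF : Continuous F) :
    ∫ t in Set.pi Set.univ (fun _ : V => Set.Ioc (-Real.pi) Real.pi),
        F (fun v => (t v : AddCircle (2 * Real.pi))) = ∫ t, F t := by
  have h1 : MeasurePreserving ((↑) : ℝ → AddCircle (2 * Real.pi))
      (volume.restrict (Ioc (-Real.pi) Real.pi)) := by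
    have := AddCircle.measurePreserving_mk (2 * Real.pi) (-Real.pi)
    rwa [show -Real.pi + 2 * Real.pi = Real.pi by ring] at this
  have h2 : MeasurePreserving (fun (t : V → ℝ) (v : V) => (t v : AddCircle (2 * Real.pi)))
      (Measure.pi fun _ : V => volume.restrict (Ioc (-Real.pi) Real.pi))
      (Measure.pi fun _ : V => (volume : Measure (AddCircle (2 * Real.pi)))) :=
    measurePreserving_pi _ _ fun _ => h1
  have h3 : (volume : Measure (V → ℝ)).restrict
      (Set.pi Set.univ (fun _ : V => Set.Ioc (-Real.pi) Real.pi))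
      = Measure.pi fun _ : V => (volume : Measure ℝ).restrict (Ioc (-Real.pi) Real.pi) := by
    rw [volume_pi, Measure.restrict_pi_pi]
  rw [h3, volume_pi, ← h2.map_eq, integral_map h2.measurable.aemeasurable]
  rw [h2.map_eq]
  exact hF.aestronglyMeasurable

end

/-- **Ginibre's inequality for plane rotators**, integrals over the box `(-π, π]^V`. -/
theorem gin_box {V E : Type*} [Fintype V] [Fintype E] (x y : E → V) (a b : V)
    (J J' : E → ℝ) (hJ : ∀ e, |J e| ≤ J' e) :
    (∫ t in Set.pi Set.univ (fun _ : V => Set.Ioc (-Real.pi) Real.pi), Real.cos (t a - t b)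
        * Real.exp (∑ e, J e * Real.cos (t (x e) - t (y e))))
      * (∫ t in Set.pi Set.univ (fun _ : V => Set.Ioc (-Real.pi) Real.pi),
          Real.exp (∑ e, J' e * Real.cos (t (x e) - t (y e))))
      ≤ (∫ t in Set.pi Set.univ (fun _ : V => Set.Ioc (-Real.pi) Real.pi), Real.cos (t a - t b)
          * Real.exp (∑ e, J' e * Real.cos (t (x e) - t (y e))))
        * (∫ t in Set.pi Set.univ (fun _ : V => Set.Ioc (-Real.pi) Real.pi),
            Real.exp (∑ e, J e * Real.cos (t (x e) - t (y e)))) := by
  have : Fact (0 < 2 * Real.pi) := ⟨Real.two_pi_pos⟩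
  have hcont : ∀ p q : V, Continuous fun t : V → AddCircle (2 * Real.pi) =>
      co (t p - t q) := fun p q =>
    co_cont.comp ((continuous_apply p).sub (continuous_apply q))
  have hE : ∀ K : E → ℝ, Continuous fun t : V → AddCircle (2 * Real.pi) =>
      Real.exp (∑ e, K e * co (t (x e) - t (y e))) := fun K =>
    Real.continuous_exp.comp (continuous_finsetSum _ fun e _ =>
      continuous_const.mul (hcont _ _))
  have h1 : ∀ K : E → ℝ,
      (∫ t in Set.pi Set.univ (fun _ : V => Set.Ioc (-Real.pi) Real.pi),
          Real.exp (∑ e, K e * Real.cos (t (x e) - t (y e))))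
        = ∫ t : V → AddCircle (2 * Real.pi), Real.exp (∑ e, K e * co (t (x e) - t (y e))) :=
    fun K => integral_box _ (hE K)
  have h2 : ∀ K : E → ℝ,
      (∫ t in Set.pi Set.univ (fun _ : V => Set.Ioc (-Real.pi) Real.pi), Real.cos (t a - t b)
          * Real.exp (∑ e, K e * Real.cos (t (x e) - t (y e))))
        = ∫ t : V → AddCircle (2 * Real.pi), co (t a - t b)
          * Real.exp (∑ e, K e * co (t (x e) - t (y e))) :=
    fun K => integral_box (fun t => co (t a - t b)
          * Real.exp (∑ e, K e * co (t (x e) - t (y e)))) ((hcont _ _).mul (hE K))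
  rw [h1, h1, h2, h2]
  exact gin_xy x y a b J J' hJ

end Vale.Agent.P163.Gin
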