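import Vale.Agent.P163.Base

/-! # P163, row INV: invariance of the uniform measure under linear isometries -/

namespace Vale.Agent.P163

open MeasureTheory Pointwise

variable {V : Type*} [Fintype V]

theorem omega_prob {n : ℕ} (hn : n ≠ 0) : IsProbabilityMeasure (omega n) := by
  constructor
  unfold omega
  rw [Measure.smul_apply, smul_eq_mul]
  have hnt : Nontrivial (E n) := by
    have : NeZero n := ⟨hn⟩
    infer_instance
  apply ENNReal.inv_mul_cancel
  · rw [Ne, Measure.measure_univ_eq_zero]
    exact Measure.toSphere_ne_zero _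
  · exact measure_ne_top _ _

theorem act_cont {n : ℕ} (R : E n ≃ₗᵢ[ℝ] E n) : Continuous (act R) := by
  unfold act
  fun_prop

theorem act_mp {n : ℕ} (R : E n ≃ₗᵢ[ℝ] E n) : MeasurePreserving (act R) (omega n) (omega n) := by
  refine ⟨(act_cont R).measurable, ?_⟩
  ext s hs
  rw [Measure.map_apply (act_cont R).measurable hs]
  unfold omega
  rw [Measure.smul_apply, Measure.smul_apply]
  congr 1
  rw [Measure.toSphere_apply' _ hs, Measure.toSphere_apply' _ ((act_cont R).measurable hs)]
  congr 1
  have key : Set.Ioo (0 : ℝ) 1 • ((fun x : S n => (x : E n)) '' (act R ⁻¹' s)) =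
      R ⁻¹' (Set.Ioo (0 : ℝ) 1 • ((fun x : S n => (x : E n)) '' s)) := by
    ext v
    simp only [Set.mem_smul, Set.mem_image, Set.mem_preimage]
    constructor
    · rintro ⟨r, hr, w, ⟨t, ht, rfl⟩, rfl⟩
      exact ⟨r, hr, R t, ⟨act R t, ht, rfl⟩, by simp⟩
    · rintro ⟨r, hr, w, ⟨t, ht, rfl⟩, hv⟩
      refine ⟨r, hr, R.symm t, ⟨act R.symm t, ?_, rfl⟩, ?_⟩
      · have : act R (act R.symm t) = t := by
          apply Subtype.ext
          simp [act]
        rw [this]; exact ht
      · have := congrArg R.symm hv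
        simpa using this
  rw [key]
  exact (R.measurePreserving).measure_preimage_emb R.toHomeomorph.measurableEmbedding _

theorem actV_mp {n : ℕ} (hn : n ≠ 0) (R : V → (E n ≃ₗᵢ[ℝ] E n)) :
    MeasurePreserving (fun (s : V → S n) a => act (R a) (s a)) (Om n V) (Om n V) := by
  have := omega_prob hn
  unfold Om
  exact measurePreserving_pi _ _ fun a => act_mp (R a)

end Vale.Agent.P163
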