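import Mathlib
import Vale.Agent.P163.Base
import Vale.Agent.P163.Inv
import Vale.Agent.P163.Gin

/-! # P163, row ROT -/

namespace Vale.Agent.P163

open MeasureTheory

variable {V : Type*} [Fintype V]

namespace RotAux

/-- rotation in the plane of the first two coordinates, as a function -/
noncomputable def rf {k : ℕ} (z : Circle) (v : E (k + 2)) : E (k + 2) :=
  WithLp.toLp 2 (Fin.cons ((z : ℂ) * zet v).re (Fin.cons ((z : ℂ) * zet v).im
    (fun j : Fin k => v j.succ.succ)))

lemma rf_zero {k : ℕ} (z : Circle) (v : E (k + 2)) : rf z v 0 = ((z : ℂ) * zet v).re := rfl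

lemma rf_one {k : ℕ} (z : Circle) (v : E (k + 2)) : rf z v 1 = ((z : ℂ) * zet v).im := rfl

lemma rf_ss {k : ℕ} (z : Circle) (v : E (k + 2)) (j : Fin k) :
    rf z v j.succ.succ = v j.succ.succ := rfl

lemma zet_rf {k : ℕ} (z : Circle) (v : E (k + 2)) : zet (rf z v) = (z : ℂ) * zet v := by
  apply Complex.ext
  · rfl
  · rfl

lemma rest_rf {k : ℕ} (z z' : Circle) (v w : E (k + 2)) :
    rest (rf z v) (rf z' w) = rest v w := rfl

lemma inner_eq {k : ℕ} (v w : E (k + 2)) :
    inner ℝ v w = (zet v * (starRingEnd ℂ) (zet w)).re + rest v w := by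
  rw [PiLp.inner_apply, Fin.sum_univ_succ, Fin.sum_univ_succ]
  simp only [rest, zet, Complex.mul_re, Complex.conj_re, Complex.conj_im]
  have h : ∀ a b : ℝ, inner ℝ a b = a * b := fun a b => by
    simp [mul_comm]
  simp only [h]
  have h1 : (Fin.succ (0 : Fin (k + 1)) : Fin (k + 2)) = 1 := rfl
  rw [h1]
  ring

lemma norm_rf {k : ℕ} (z : Circle) (v : E (k + 2)) : ‖rf z v‖ = ‖v‖ := by
  have h : ‖rf z v‖ ^ 2 = ‖v‖ ^ 2 := by
    rw [← real_inner_self_eq_norm_sq, ← real_inner_self_eq_norm_sq, inner_eq, inner_eq,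
      zet_rf, rest_rf]
    congr 1
    rw [Complex.mul_conj, Complex.mul_conj, Complex.normSq_mul, Circle.normSq_coe, one_mul]
  exact (pow_left_inj₀ (norm_nonneg (rf z v)) (norm_nonneg v) two_ne_zero).1 h

lemma rf_add {k : ℕ} (z : Circle) (v w : E (k + 2)) : rf z (v + w) = rf z v + rf z w := by
  have hz : zet (v + w) = zet v + zet w := rfl
  ext i
  refine Fin.cases ?_ (fun i => Fin.cases ?_ (fun j => ?_) i) i
  · show ((z : ℂ) * zet (v + w)).re = ((z : ℂ) * zet v).re + ((z : ℂ) * zet w).re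
    rw [hz, mul_add, Complex.add_re]
  · show ((z : ℂ) * zet (v + w)).im = ((z : ℂ) * zet v).im + ((z : ℂ) * zet w).im
    rw [hz, mul_add, Complex.add_im]
  · rfl

lemma rf_smul {k : ℕ} (z : Circle) (c : ℝ) (v : E (k + 2)) : rf z (c • v) = c • rf z v := by
  have hz : zet (c • v) = (c : ℂ) * zet v := by
    apply Complex.ext
    · simp [zet]
    · simp [zet]
  ext i
  refine Fin.cases ?_ (fun i => Fin.cases ?_ (fun j => ?_) i) i
  · show ((z : ℂ) * zet (c • v)).re = c * ((z : ℂ) * zet v).re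
    rw [hz, mul_left_comm, Complex.re_ofReal_mul]
  · show ((z : ℂ) * zet (c • v)).im = c * ((z : ℂ) * zet v).im
    rw [hz, mul_left_comm, Complex.im_ofReal_mul]
  · rfl

/-- rotation in the plane of the first two coordinates -/
noncomputable def rot2 (k : ℕ) (z : Circle) : E (k + 2) ≃ₗᵢ[ℝ] E (k + 2) :=
  LinearIsometry.toLinearIsometryEquiv
    { toFun := rf z, map_add' := rf_add z, map_smul' := rf_smul z, norm_map' := norm_rf z } rfl

lemma rot2_apply (k : ℕ) (z : Circle) (v : E (k + 2)) : rot2 k z v = rf z v := rfl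

/-- rotation of all spins -/
noncomputable def rv (k : ℕ) (z : V → Circle) (s : V → S (k + 2)) : V → S (k + 2) :=
  fun a => act (rot2 k (z a)) (s a)

lemma rv_coe (k : ℕ) (z : V → Circle) (s : V → S (k + 2)) (a : V) :
    ((rv k z s a : S (k + 2)) : E (k + 2)) = rf (z a) (s a : E (k + 2)) := rfl

lemma rf_cont (k : ℕ) : Continuous fun p : Circle × E (k + 2) => rf p.1 p.2 := by
  unfold rf zet
  refine (PiLp.continuous_toLp 2 _).comp ?_
  refine continuous_pi fun i => ?_
  refine Fin.cases ?_ (fun i => Fin.cases ?_ (fun j => ?_) i) i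
  · simp only [Fin.cons_zero, Complex.mul_re]
    fun_prop
  · simp only [Fin.cons_succ, Fin.cons_zero, Complex.mul_im]
    fun_prop
  · simp only [Fin.cons_succ]
    fun_prop

lemma rv_cont (k : ℕ) :
    Continuous fun p : (V → S (k + 2)) × (V → Circle) => rv k p.2 p.1 := by
  refine continuous_pi fun a => ?_
  refine Continuous.subtype_mk ?_ _
  have h : Continuous (fun p : (V → S (k + 2)) × (V → Circle) =>
      (p.2 a, ((p.1 a : S (k + 2)) : E (k + 2)))) :=
    ((continuous_apply a).comp continuous_snd).prodMk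
      (continuous_subtype_val.comp ((continuous_apply a).comp continuous_fst))
  exact (rf_cont k).comp h

/-- averaging over the rotations -/
lemma avg (k : ℕ) (F : (V → S (k + 2)) → ℝ) (hF : Continuous F) :
    ∫ s, F s ∂(Om (k + 2) V) = ∫ s, (∫ z, F (rv k z s) ∂(haarV V)) ∂(Om (k + 2) V) := by
  have := omega_prob (n := k + 2) (by omega)
  have : IsProbabilityMeasure (Om (k + 2) V) := by unfold Om; infer_instance
  have h1 : ∀ z : V → Circle, ∫ s, F (rv k z s) ∂(Om (k + 2) V) = ∫ s, F s ∂(Om (k + 2) V) := by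
    intro z
    have hmp := actV_mp (V := V) (n := k + 2) (by omega) (fun a => rot2 k (z a))
    have h2 := integral_map (μ := Om (k + 2) V) (φ := fun (s : V → S (k + 2)) a =>
      act (rot2 k (z a)) (s a)) hmp.measurable.aemeasurable (f := F) hF.aestronglyMeasurable
    rw [hmp.map_eq] at h2
    exact h2.symm
  have hcont : Continuous fun p : (V → S (k + 2)) × (V → Circle) => F (rv k p.2 p.1) :=
    hF.comp (rv_cont k)
  have hint : Integrable (Function.uncurry fun (s : V → S (k + 2)) (z : V → Circle) =>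
      F (rv k z s)) ((Om (k + 2) V).prod (haarV V)) :=
    (Gin.bm_of_continuous' hcont).integrable _
  rw [integral_integral_swap hint]
  simp only [h1, integral_const, probReal_univ, one_smul]

/-- the phase of a complex number -/
noncomputable def ph (ζ : ℂ) : Circle := Circle.exp (Complex.arg ζ)

lemma ph_spec (ζ : ℂ) : ζ = (‖ζ‖ : ℂ) * (ph ζ : ℂ) := by
  rw [ph, Circle.coe_exp]
  exact (Complex.norm_mul_exp_arg_mul_I ζ).symm

/-- the phases -/
noncomputable def W {k : ℕ} (s : V → S (k + 2)) : V → Circle := fun a => ph (zet (s a : E (k + 2)))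

/-- the radii -/
noncomputable def rr {k : ℕ} (s : V → S (k + 2)) (a : V) : ℝ := ‖zet (s a : E (k + 2))‖

/-- the modified couplings -/
noncomputable def JJ {k : ℕ} (J : V → V → ℝ) (s : V → S (k + 2)) (a b : V) : ℝ :=
  J a b * (rr s a * rr s b)

/-- the rest of the Hamiltonian -/
noncomputable def RR {k : ℕ} (J : V → V → ℝ) (s : V → S (k + 2)) : ℝ :=
  ∑ a, ∑ b, J a b * rest (s a : E (k + 2)) (s b : E (k + 2))

lemma conj_part {k : ℕ} (s : V → S (k + 2)) (z : V → Circle) (a b : V) :
    (zet ((rv k z s a : S (k + 2)) : E (k + 2)) *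
      (starRingEnd ℂ) (zet ((rv k z s b : S (k + 2)) : E (k + 2)))).re
      = rr s a * rr s b * cc ((W s * z) a) ((W s * z) b) := by
  rw [rv_coe, rv_coe, zet_rf, zet_rf]
  conv_lhs => rw [ph_spec (zet (s a : E (k + 2))), ph_spec (zet (s b : E (k + 2)))]
  have h : ((z a : ℂ) * ((‖zet (s a : E (k + 2))‖ : ℂ) * (ph (zet (s a : E (k + 2))) : ℂ)) *
      (starRingEnd ℂ) ((z b : ℂ) * ((‖zet (s b : E (k + 2))‖ : ℂ)
        * (ph (zet (s b : E (k + 2))) : ℂ))))
      = ((rr s a * rr s b : ℝ) : ℂ) * ((((W s * z) a : Circle) : ℂ)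
        * (starRingEnd ℂ) (((W s * z) b : Circle) : ℂ)) := by
    simp only [map_mul, Complex.conj_ofReal, Pi.mul_apply, Circle.coe_mul, W, rr,
      Complex.ofReal_mul]
    ring
  rw [h, Complex.re_ofReal_mul, cc]

lemma ham_rv {k : ℕ} (J : V → V → ℝ) (s : V → S (k + 2)) (z : V → Circle) :
    ham J (rv k z s) = hXY (JJ J s) (W s * z) + RR J s := by
  unfold ham hXY RR
  rw [← Finset.sum_add_distrib]
  refine Finset.sum_congr rfl fun a _ => ?_
  rw [← Finset.sum_add_distrib]
  refine Finset.sum_congr rfl fun b _ => ?_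
  rw [inner_eq, conj_part, rv_coe, rv_coe, rest_rf, JJ]
  ring

lemma norm_rv {k : ℕ} (s : V → S (k + 2)) (z : V → Circle) (a : V) :
    ‖zet ((rv k z s a : S (k + 2)) : E (k + 2))‖ = rr s a := by
  rw [rv_coe, zet_rf, norm_mul, Circle.norm_coe, one_mul, rr]

lemma int_num {k : ℕ} (J : V → V → ℝ) (s : V → S (k + 2)) (x y : V) :
    ∫ z, (zet ((rv k z s x : S (k + 2)) : E (k + 2)) *
      (starRingEnd ℂ) (zet ((rv k z s y : S (k + 2)) : E (k + 2)))).re *
        Real.exp (ham J (rv k z s)) ∂(haarV V)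
      = rr s x * rr s y * Real.exp (RR J s) * XN (JJ J s) x y := by
  have h : ∀ z : V → Circle, (zet ((rv k z s x : S (k + 2)) : E (k + 2)) *
      (starRingEnd ℂ) (zet ((rv k z s y : S (k + 2)) : E (k + 2)))).re *
        Real.exp (ham J (rv k z s)) = rr s x * rr s y * Real.exp (RR J s) *
        (fun w : V → Circle => cc (w x) (w y) * Real.exp (hXY (JJ J s) w)) (W s * z) := by
    intro z
    rw [conj_part, ham_rv, Real.exp_add]
    ring
  simp only [h]
  rw [integral_const_mul]
  congr 1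
  exact integral_mul_left_eq_self (μ := haarV V)
    (fun w : V → Circle => cc (w x) (w y) * Real.exp (hXY (JJ J s) w)) (W s)

lemma int_rad {k : ℕ} (J : V → V → ℝ) (s : V → S (k + 2)) (x y : V) :
    ∫ z, ‖zet ((rv k z s x : S (k + 2)) : E (k + 2))‖ *
      ‖zet ((rv k z s y : S (k + 2)) : E (k + 2))‖ *
        Real.exp (ham J (rv k z s)) ∂(haarV V)
      = rr s x * rr s y * Real.exp (RR J s) * XZ (JJ J s) := by
  have h : ∀ z : V → Circle, ‖zet ((rv k z s x : S (k + 2)) : E (k + 2))‖ *
      ‖zet ((rv k z s y : S (k + 2)) : E (k + 2))‖ *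
        Real.exp (ham J (rv k z s)) = rr s x * rr s y * Real.exp (RR J s) *
        (fun w : V → Circle => Real.exp (hXY (JJ J s) w)) (W s * z) := by
    intro z
    rw [norm_rv, norm_rv, ham_rv, Real.exp_add]
    ring
  simp only [h]
  rw [integral_const_mul]
  congr 1
  exact integral_mul_left_eq_self (μ := haarV V)
    (fun w : V → Circle => Real.exp (hXY (JJ J s) w)) (W s)

lemma zet_cont (k : ℕ) : Continuous fun v : E (k + 2) => zet v := by
  have h : (fun v : E (k + 2) => zet v) = fun v => ((v 0 : ℝ) : ℂ) + ((v 1 : ℝ) : ℂ) * Complex.I := by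
    funext v
    apply Complex.ext
    · simp [zet]
    · simp [zet]
  rw [h]
  fun_prop

lemma ham_cont {n : ℕ} (J : V → V → ℝ) : Continuous fun s : V → S n => ham J s := by
  unfold ham
  exact continuous_finsetSum _ fun a _ => continuous_finsetSum _ fun b _ =>
    continuous_const.mul ((continuous_subtype_val.comp (continuous_apply a)).inner
      (continuous_subtype_val.comp (continuous_apply b)))

lemma num_cont (k : ℕ) (J : V → V → ℝ) (x y : V) : Continuous fun s : V → S (k + 2) =>
    (zet (s x : E (k + 2)) * (starRingEnd ℂ) (zet (s y : E (k + 2)))).re *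
        Real.exp (ham J s) := by
  have h1 : ∀ a : V, Continuous fun s : V → S (k + 2) => zet (s a : E (k + 2)) := fun a =>
    (zet_cont k).comp (continuous_subtype_val.comp (continuous_apply a))
  exact (Complex.continuous_re.comp ((h1 x).mul (Complex.continuous_conj.comp (h1 y)))).mul
    (Real.continuous_exp.comp (ham_cont J))

lemma rad_cont (k : ℕ) (J : V → V → ℝ) (x y : V) : Continuous fun s : V → S (k + 2) =>
    ‖zet (s x : E (k + 2))‖ * ‖zet (s y : E (k + 2))‖ * Real.exp (ham J s) := by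
  have h1 : ∀ a : V, Continuous fun s : V → S (k + 2) => zet (s a : E (k + 2)) := fun a =>
    (zet_cont k).comp (continuous_subtype_val.comp (continuous_apply a))
  exact ((h1 x).norm.mul (h1 y).norm).mul (Real.continuous_exp.comp (ham_cont J))

lemma rr_nonneg {k : ℕ} (s : V → S (k + 2)) (a : V) : 0 ≤ rr s a := norm_nonneg _

lemma rr_le {k : ℕ} (s : V → S (k + 2)) (a : V) : rr s a ≤ 1 := by
  have h1 : ‖(s a : E (k + 2))‖ = 1 := by simpa using (s a).2
  have h2 : inner ℝ (s a : E (k + 2)) (s a : E (k + 2)) = 1 := by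
    rw [real_inner_self_eq_norm_sq, h1, one_pow]
  rw [inner_eq, Complex.mul_conj, Complex.ofReal_re, Complex.normSq_eq_norm_sq] at h2
  have h3 : 0 ≤ rest (s a : E (k + 2)) (s a : E (k + 2)) :=
    Finset.sum_nonneg fun i _ => mul_self_nonneg _
  have h4 : rr s a ^ 2 ≤ 1 := by
    unfold rr
    linarith
  nlinarith [rr_nonneg s a]

end RotAux

open RotAux

theorem rot (k : ℕ) (J : V → V → ℝ) (h0 : ∀ a b, 0 ≤ J a b) (x y : V) :
    (∫ s : V → S (k + 2), (zet (s x : E (k + 2)) * (starRingEnd ℂ) (zet (s y : E (k + 2)))).re *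
        Real.exp (ham J s) ∂(Om (k + 2) V)) * XZ J ≤
      XN J x y * ∫ s : V → S (k + 2), ‖zet (s x : E (k + 2))‖ * ‖zet (s y : E (k + 2))‖ *
        Real.exp (ham J s) ∂(Om (k + 2) V) := by
  have := omega_prob (n := k + 2) (by omega)
  have : IsProbabilityMeasure (Om (k + 2) V) := by unfold Om; infer_instance
  have e1 : ∀ s : V → S (k + 2), (∫ z, (zet ((rv k z s x : S (k + 2)) : E (k + 2)) *
      (starRingEnd ℂ) (zet ((rv k z s y : S (k + 2)) : E (k + 2)))).re *
        Real.exp (ham J (rv k z s)) ∂(haarV V)) * XZ J ≤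
      XN J x y * ∫ z, ‖zet ((rv k z s x : S (k + 2)) : E (k + 2))‖ *
      ‖zet ((rv k z s y : S (k + 2)) : E (k + 2))‖ *
        Real.exp (ham J (rv k z s)) ∂(haarV V) := by
    intro s
    rw [int_num, int_rad]
    have hr : ∀ a b, 0 ≤ rr s a * rr s b := fun a b => mul_nonneg (rr_nonneg s a) (rr_nonneg s b)
    have hr1 : ∀ a b, rr s a * rr s b ≤ 1 := fun a b =>
      mul_le_one₀ (rr_le s a) (rr_nonneg s b) (rr_le s b)
    have hg := gin (JJ J s) J (fun a b => mul_nonneg (h0 a b) (hr a b))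
      (fun a b => mul_le_of_le_one_right (h0 a b) (hr1 a b)) x y
    have hp : 0 ≤ rr s x * rr s y * Real.exp (RR J s) :=
      mul_nonneg (hr x y) (Real.exp_pos _).le
    calc rr s x * rr s y * Real.exp (RR J s) * XN (JJ J s) x y * XZ J
        = rr s x * rr s y * Real.exp (RR J s) * (XN (JJ J s) x y * XZ J) := by ring
      _ ≤ rr s x * rr s y * Real.exp (RR J s) * (XN J x y * XZ (JJ J s)) :=
          mul_le_mul_of_nonneg_left hg hp
      _ = XN J x y * (rr s x * rr s y * Real.exp (RR J s) * XZ (JJ J s)) := by ring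
  rw [avg k _ (num_cont k J x y), avg k _ (rad_cont k J x y), ← integral_mul_const,
    ← integral_const_mul]
  have hc1 : Continuous fun p : (V → S (k + 2)) × (V → Circle) =>
      (zet ((rv k p.2 p.1 x : S (k + 2)) : E (k + 2)) *
      (starRingEnd ℂ) (zet ((rv k p.2 p.1 y : S (k + 2)) : E (k + 2)))).re *
        Real.exp (ham J (rv k p.2 p.1)) := (num_cont k J x y).comp (rv_cont k)
  have hc2 : Continuous fun p : (V → S (k + 2)) × (V → Circle) =>
      ‖zet ((rv k p.2 p.1 x : S (k + 2)) : E (k + 2))‖ *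
      ‖zet ((rv k p.2 p.1 y : S (k + 2)) : E (k + 2))‖ *
        Real.exp (ham J (rv k p.2 p.1)) := (rad_cont k J x y).comp (rv_cont k)
  have i1 : Integrable (fun p : (V → S (k + 2)) × (V → Circle) =>
      (zet ((rv k p.2 p.1 x : S (k + 2)) : E (k + 2)) *
      (starRingEnd ℂ) (zet ((rv k p.2 p.1 y : S (k + 2)) : E (k + 2)))).re *
        Real.exp (ham J (rv k p.2 p.1))) ((Om (k + 2) V).prod (haarV V)) :=
    (Gin.bm_of_continuous' hc1).integrable _
  have i2 : Integrable (fun p : (V → S (k + 2)) × (V → Circle) =>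
      ‖zet ((rv k p.2 p.1 x : S (k + 2)) : E (k + 2))‖ *
      ‖zet ((rv k p.2 p.1 y : S (k + 2)) : E (k + 2))‖ *
        Real.exp (ham J (rv k p.2 p.1))) ((Om (k + 2) V).prod (haarV V)) :=
    (Gin.bm_of_continuous' hc2).integrable _
  exact integral_mono (i1.integral_prod_left.mul_const _) (i2.integral_prod_left.const_mul _) e1

theorem rot_nonneg (k : ℕ) (J : V → V → ℝ) (h0 : ∀ a b, 0 ≤ J a b) (x y : V) :
    0 ≤ ∫ s : V → S (k + 2), (zet (s x : E (k + 2)) *
      (starRingEnd ℂ) (zet (s y : E (k + 2)))).re * Real.exp (ham J s) ∂(Om (k + 2) V) := by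
  rw [avg k _ (num_cont k J x y)]
  refine integral_nonneg fun s => ?_
  show 0 ≤ ∫ z, _ ∂(haarV V)
  rw [int_num]
  have hr : ∀ a b, 0 ≤ rr s a * rr s b := fun a b => mul_nonneg (rr_nonneg s a) (rr_nonneg s b)
  exact mul_nonneg (mul_nonneg (hr x y) (Real.exp_pos _).le)
    (gin0 (JJ J s) (fun a b => mul_nonneg (h0 a b) (hr a b)) x y)

lemma rest_two (v w : E 2) : rest (k := 0) v w = 0 := by
  unfold rest
  simp

lemma rr_two (s : V → S 2) (a : V) : rr (k := 0) s a = 1 := by
  have h1 : ‖(s a : E 2)‖ = 1 := by simpa using (s a).2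
  have h2 : inner ℝ (s a : E 2) (s a : E 2) = 1 := by
    rw [real_inner_self_eq_norm_sq, h1, one_pow]
  rw [inner_eq (k := 0), Complex.mul_conj, Complex.ofReal_re, Complex.normSq_eq_norm_sq,
    rest_two, add_zero] at h2
  have h3 := rr_nonneg (k := 0) s a
  have h4 : rr (k := 0) s a ^ 2 = 1 := h2
  nlinarith

/-- row ROT, second part: the case `n = 2` and positivity -/
theorem two_num (J : V → V → ℝ) (x y : V) :
    ∫ s : V → S 2, inner ℝ (s x : E 2) (s y : E 2) * Real.exp (ham J s) ∂(Om 2 V) = XN J x y := by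
  have := omega_prob (n := 2) (by omega)
  have : IsProbabilityMeasure (Om 2 V) := by unfold Om; infer_instance
  have h1 : ∀ s : V → S 2, inner ℝ (s x : E 2) (s y : E 2) * Real.exp (ham J s)
      = (zet (k := 0) (s x : E 2) * (starRingEnd ℂ) (zet (k := 0) (s y : E 2))).re *
        Real.exp (ham J s) := by
    intro s
    rw [inner_eq (k := 0), rest_two, add_zero]
  simp only [h1]
  rw [avg 0 _ (num_cont 0 J x y)]
  have h2 : ∀ s : V → S 2, (∫ z, (zet ((rv 0 z s x : S 2) : E 2) *
      (starRingEnd ℂ) (zet ((rv 0 z s y : S 2) : E 2))).re *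
        Real.exp (ham J (rv 0 z s)) ∂(haarV V)) = XN J x y := by
    intro s
    rw [int_num]
    have h3 : JJ (k := 0) J s = J := by
      funext a b
      rw [JJ, rr_two, rr_two]
      ring
    have h4 : RR (k := 0) J s = 0 := by
      unfold RR
      simp [rest_two]
    rw [h3, h4, rr_two, rr_two, Real.exp_zero]
    ring
  simp only [h2, integral_const, probReal_univ, one_smul]

theorem two_den (J : V → V → ℝ) : Zn 2 J = XZ J := by
  have := omega_prob (n := 2) (by omega)
  have : IsProbabilityMeasure (Om 2 V) := by unfold Om; infer_instance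
  unfold Zn
  refine (avg 0 (fun s : V → S 2 => Real.exp (ham J s))
    (Real.continuous_exp.comp (ham_cont J))).trans ?_
  have h2 : ∀ s : V → S 2, (∫ z, Real.exp (ham J (rv 0 z s)) ∂(haarV V)) = XZ J := by
    intro s
    have h3 : JJ (k := 0) J s = J := by
      funext a b
      rw [JJ, rr_two, rr_two]
      ring
    have h4 : RR (k := 0) J s = 0 := by
      unfold RR
      simp [rest_two]
    simp only [ham_rv, h3, h4, add_zero]
    exact integral_mul_left_eq_self (μ := haarV V)
      (fun w : V → Circle => Real.exp (hXY J w)) (W s)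
  simp only [h2, integral_const, probReal_univ, one_smul]

end Vale.Agent.P163
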