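import Mathlib
import Vale.Agent.P163.Base
import Vale.Agent.P163.Gin
import Vale.Agent.P163.Rot

/-! # P163, row ISI: the XY model is below the Ising model at half the coupling -/

open MeasureTheory Filter Topology Set

namespace Vale.Agent.P163.Isi

open Gin

section
variable {Ω : Type*} [MeasurableSpace Ω] (ρ : Measure (Ω × Ω)) [IsFiniteMeasure ρ]
  {ι : Type*} [Fintype ι]

lemma psd_pow' (hρ : ∀ g : Ω → ℝ, BM g → 0 ≤ ∫ p : Ω × Ω, g p.1 * g p.2 ∂ρ)
    (a : ι → ℝ) (ha : ∀ i, 0 ≤ a i) (φ : ι → Ω → ℝ) (hφ : ∀ i, BM (φ i)) (n : ℕ) :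
    ∀ g : Ω → ℝ, BM g →
      0 ≤ ∫ p : Ω × Ω, g p.1 * g p.2 * (∑ i, a i * (φ i p.1 * φ i p.2)) ^ n ∂ρ := by
  induction n with
  | zero =>
    intro g hg
    simp only [pow_zero, mul_one]
    exact hρ g hg
  | succ n ih =>
    intro g hg
    have hK : BM (fun p : Ω × Ω => ∑ i, a i * (φ i p.1 * φ i p.2)) :=
      BM.sum _ fun i => (BM.const _).mul ((hφ i).fst.mul (hφ i).snd)
    have h1 : (fun p : Ω × Ω => g p.1 * g p.2 * (∑ i, a i * (φ i p.1 * φ i p.2)) ^ (n + 1))
        = fun p => ∑ i, a i * ((g p.1 * φ i p.1) * (g p.2 * φ i p.2)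
            * (∑ i, a i * (φ i p.1 * φ i p.2)) ^ n) := by
      funext p
      rw [pow_succ, Finset.mul_sum, Finset.mul_sum]
      refine Finset.sum_congr rfl fun i _ => ?_
      ring
    rw [h1, integral_finsetSum]
    · refine Finset.sum_nonneg fun i _ => ?_
      rw [integral_const_mul]
      exact mul_nonneg (ha i) (ih (fun x => g x * φ i x) (hg.mul (hφ i)))
    · intro i _
      exact ((BM.const (a i)).mul (((hg.mul (hφ i)).fst.mul (hg.mul (hφ i)).snd).mul
        (hK.pow n))).integrable _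

lemma psd_exp' (hρ : ∀ g : Ω → ℝ, BM g → 0 ≤ ∫ p : Ω × Ω, g p.1 * g p.2 ∂ρ)
    (a : ι → ℝ) (ha : ∀ i, 0 ≤ a i) (φ : ι → Ω → ℝ) (hφ : ∀ i, BM (φ i))
    (g : Ω → ℝ) (hg : BM g) :
    0 ≤ ∫ p : Ω × Ω, g p.1 * g p.2 * Real.exp (∑ i, a i * (φ i p.1 * φ i p.2)) ∂ρ := by
  have hK : BM (fun p : Ω × Ω => ∑ i, a i * (φ i p.1 * φ i p.2)) :=
    BM.sum _ fun i => (BM.const _).mul ((hφ i).fst.mul (hφ i).snd)
  have hgg : BM (fun p : Ω × Ω => g p.1 * g p.2) := hg.fst.mul hg.snd
  obtain ⟨C, hC⟩ := hK.2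
  obtain ⟨D, hD⟩ := hgg.2
  have key : ∀ n : ℕ, 0 ≤ ∫ p : Ω × Ω, g p.1 * g p.2 *
      (1 + (∑ i, a i * (φ i p.1 * φ i p.2)) / n) ^ n ∂ρ := by
    intro n
    have h := psd_pow' ρ hρ (ι := Option ι) (fun o => o.elim 1 (fun i => a i / n))
      (fun o => by
        cases o with
        | none => exact zero_le_one
        | some i => exact div_nonneg (ha i) (Nat.cast_nonneg n))
      (fun o => o.elim (fun _ => 1) φ)
      (fun o => by
        cases o with
        | none => exact BM.const 1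
        | some i => exact hφ i) n g hg
    refine h.trans_eq (integral_congr_ae (Eventually.of_forall fun p => ?_))
    simp only [Fintype.sum_option, Option.elim_none, Option.elim_some, mul_one]
    congr 3
    rw [Finset.sum_div]
    exact Finset.sum_congr rfl fun i _ => by ring
  have hlim : Tendsto (fun n : ℕ => ∫ p : Ω × Ω, g p.1 * g p.2 *
      (1 + (∑ i, a i * (φ i p.1 * φ i p.2)) / n) ^ n ∂ρ) atTop
      (𝓝 (∫ p : Ω × Ω, g p.1 * g p.2 * Real.exp (∑ i, a i * (φ i p.1 * φ i p.2))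
        ∂ρ)) := by
    refine tendsto_integral_of_dominated_convergence (fun _ => D * Real.exp C) ?_
      (integrable_const _) ?_ ?_
    · intro n
      have : BM (fun p : Ω × Ω => g p.1 * g p.2 *
          (1 + (∑ i, a i * (φ i p.1 * φ i p.2)) / n) ^ n) := by
        have h1 := hgg.mul (((BM.const (Ω := Ω × Ω) 1).add
          (hK.mul (BM.const ((n : ℝ)⁻¹)))).pow n)
        simpa [div_eq_mul_inv] using h1
      exact this.1.aestronglyMeasurable
    · intro n
      refine Eventually.of_forall fun p => ?_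
      rw [Real.norm_eq_abs, abs_mul, abs_pow]
      refine mul_le_mul (hD p) ?_ (pow_nonneg (abs_nonneg _) _) ((abs_nonneg _).trans (hD p))
      rcases Nat.eq_zero_or_pos n with rfl | hn
      · simpa using (abs_nonneg _).trans (hC p)
      have hn' : (0 : ℝ) < n := by exact_mod_cast hn
      have h2 : |1 + (∑ i, a i * (φ i p.1 * φ i p.2)) / n| ≤ Real.exp (C / n) := by
        calc |1 + (∑ i, a i * (φ i p.1 * φ i p.2)) / n|
            ≤ |(1 : ℝ)| + |(∑ i, a i * (φ i p.1 * φ i p.2)) / n| := abs_add_le _ _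
          _ ≤ 1 + C / n := by
              rw [abs_one, abs_div, abs_of_pos hn']
              gcongr
              exact hC p
          _ ≤ Real.exp (C / n) := by
              have := Real.add_one_le_exp (C / n)
              linarith
      calc |1 + (∑ i, a i * (φ i p.1 * φ i p.2)) / n| ^ n ≤ Real.exp (C / n) ^ n := by
            gcongr
        _ = Real.exp C := by
            rw [← Real.exp_nat_mul]
            congr 1
            field_simp
    · refine Eventually.of_forall fun p => ?_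
      exact (Real.tendsto_one_add_div_pow_exp _).const_mul _
  exact ge_of_tendsto' hlim key

end

section
variable {G : Type*} [CommGroup G] [TopologicalSpace G] [IsTopologicalGroup G]
  [CompactSpace G] [SecondCountableTopology G] [MeasurableSpace G] [BorelSpace G]
  {L : Type*} [AddCommGroup L] [Fintype L]

/-- the measure `∑_l ∫_u δ_(u, u κ(l)⁻¹)` -/
noncomputable def rho (μ : Measure G) (κ : L → G) : Measure (G × G) :=
  ∑ l : L, μ.map (fun u => (u, u * (κ l)⁻¹))

lemma meas_map (g : G) : Measurable fun u : G => (u, u * g) :=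
  measurable_id.prodMk (measurable_id.mul_const g)

instance (μ : Measure G) [IsFiniteMeasure μ] (κ : L → G) : IsFiniteMeasure (rho μ κ) := by
  unfold rho
  infer_instance

lemma int_rho (μ : Measure G) [IsFiniteMeasure μ] (κ : L → G) {F : G × G → ℝ} (hF : BM F) :
    ∫ p, F p ∂(rho μ κ) = ∑ l : L, ∫ u, F (u, u * (κ l)⁻¹) ∂μ := by
  unfold rho
  rw [integral_finsetSum_measure]
  · refine Finset.sum_congr rfl fun l _ => ?_
    exact integral_map (meas_map _).aemeasurable hF.1.aestronglyMeasurable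
  · intro l _
    exact hF.integrable _

lemma rho_pos (μ : Measure G) [IsFiniteMeasure μ] [μ.IsHaarMeasure] (κ : L → G)
    (hκ : ∀ l m, κ (l + m) = κ l * κ m) (g : G → ℝ) (hg : BM g) :
    0 ≤ ∫ p : G × G, g p.1 * g p.2 ∂(rho μ κ) := by
  classical
  rw [int_rho μ κ (F := fun p => g p.1 * g p.2) (hg.fst.mul hg.snd)]
  have hgt : ∀ a : G, BM fun u => g (u * a) := fun a =>
    ⟨hg.1.comp (measurable_id.mul_const a), hg.2.imp fun _ h x => h _⟩
  have hinv : ∀ m : L, (κ m)⁻¹ = κ (-m) := by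
    intro m
    have h0 : κ 0 = 1 := by
      have := hκ 0 0
      rw [add_zero] at this
      exact (mul_eq_left.1 this.symm)
    have h1 := hκ m (-m)
    rw [add_neg_cancel, h0] at h1
    exact (eq_inv_of_mul_eq_one_right h1.symm).symm
  have h1 : ∀ l m : L, ∫ u, g u * g (u * (κ m)⁻¹) ∂μ
      = ∫ u, g (u * κ l) * g (u * κ (l - m)) ∂μ := by
    intro l m
    rw [← integral_mul_right_eq_self (fun u => g u * g (u * (κ m)⁻¹)) (κ l)]
    refine integral_congr_ae (Eventually.of_forall fun u => ?_)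
    show g (u * κ l) * g (u * κ l * (κ m)⁻¹) = g (u * κ l) * g (u * κ (l - m))
    rw [mul_assoc u (κ l) (κ m)⁻¹, hinv, ← hκ, sub_eq_add_neg]
  have h2 : (Fintype.card L : ℝ) * ∑ m : L, ∫ u, g u * g (u * (κ m)⁻¹) ∂μ
      = ∫ u, (∑ l : L, g (u * κ l)) * (∑ l : L, g (u * κ l)) ∂μ := by
    have h3 : (Fintype.card L : ℝ) * ∑ m : L, ∫ u, g u * g (u * (κ m)⁻¹) ∂μ
        = ∑ l : L, ∑ m : L, ∫ u, g (u * κ l) * g (u * κ (l - m)) ∂μ := by
      simp only [← h1]
      rw [Finset.sum_const, Finset.card_univ, nsmul_eq_mul]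
    have h4 : ∀ l : L, ∑ m : L, ∫ u, g (u * κ l) * g (u * κ (l - m)) ∂μ
        = ∑ m : L, ∫ u, g (u * κ l) * g (u * κ m) ∂μ := fun l =>
      (Equiv.subLeft l).sum_comp (fun m => ∫ u, g (u * κ l) * g (u * κ m) ∂μ)
    rw [h3]
    simp only [h4]
    have h5 : (fun u => (∑ l : L, g (u * κ l)) * (∑ l : L, g (u * κ l)))
        = fun u => ∑ l : L, ∑ m : L, g (u * κ l) * g (u * κ m) := by
      funext u
      rw [Finset.sum_mul_sum]
    rw [h5, integral_finsetSum]
    · refine Finset.sum_congr rfl fun l _ => ?_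
      rw [integral_finsetSum]
      intro m _
      exact ((hgt _).mul (hgt _)).integrable _
    · intro l _
      exact (BM.sum _ fun m => (hgt _).mul (hgt _)).integrable _
  have h6 : 0 ≤ ∫ u, (∑ l : L, g (u * κ l)) * (∑ l : L, g (u * κ l)) ∂μ :=
    integral_nonneg fun u => mul_self_nonneg _
  rw [← h2] at h6
  have h7 : (0 : ℝ) < Fintype.card L := by
    have : 0 < Fintype.card L := Fintype.card_pos_iff.2 ⟨0⟩
    exact_mod_cast this
  exact nonneg_of_mul_nonneg_right h6 h7

/-- Comparison of a compact group with a finite subgroup. -/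
theorem clock (μ : Measure G) [μ.IsHaarMeasure]
    (hsq : Function.Surjective (fun x : G => x * x)) (κ : L → G)
    (hκ : ∀ l m, κ (l + m) = κ l * κ m) {E : Type*} [Fintype E]
    (c s : E → G → ℝ) (hc : ∀ e, Continuous (c e))
    (hsub : ∀ e u v, c e (u / v) = c e u * c e v + s e u * s e v)
    (hadd : ∀ e u v, c e (u * v) = c e u * c e v - s e u * s e v)
    (c₀ s₀ : G → ℝ) (hc₀ : Continuous c₀) (hs₀ : Continuous s₀)
    (hsub₀ : ∀ u v, c₀ (u / v) = c₀ u * c₀ v + s₀ u * s₀ v)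
    (hadd₀ : ∀ u v, c₀ (u * v) = c₀ u * c₀ v - s₀ u * s₀ v)
    (J : E → ℝ) (hJ : ∀ e, 0 ≤ J e) :
    (∫ x, c₀ x * Real.exp (∑ e, J e * c e x) ∂μ) * (∑ l, Real.exp (∑ e, J e * c e (κ l)))
      ≤ (∑ l, c₀ (κ l) * Real.exp (∑ e, J e * c e (κ l)))
        * (∫ x, Real.exp (∑ e, J e * c e x) ∂μ) := by
  have hc' : ∀ e, BM (c e) := fun e => bm_of_continuous' (hc e)
  have hc0' : BM c₀ := bm_of_continuous' hc₀
  have hs0' : BM s₀ := bm_of_continuous' hs₀
  have hH : BM (fun x => Real.exp (∑ e, J e * c e x)) :=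
    (BM.sum _ fun e => (BM.const (J e)).mul (hc' e)).exp
  -- the squaring map
  have hmp : MeasurePreserving (fun u : G => u * u) μ μ := by
    let f : G →* G := ⟨⟨fun u => u * u, one_mul 1⟩, fun a b => mul_mul_mul_comm a b a b⟩
    exact MonoidHom.measurePreserving (f := f) (continuous_id.mul continuous_id) hsq rfl
  have hsubst : ∀ (l : L) (F : G → ℝ), Continuous F →
      ∫ z, F z ∂μ = ∫ u, F (u * (u * (κ l)⁻¹)) ∂μ := by
    intro l F hF
    have h1 := integral_mul_right_eq_self (μ := μ) F (κ l)⁻¹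
    have hF' : Continuous fun z => F (z * (κ l)⁻¹) := hF.comp (continuous_id.mul continuous_const)
    have h2 := integral_map (μ := μ) hmp.measurable.aemeasurable (f := fun z => F (z * (κ l)⁻¹))
      hF'.aestronglyMeasurable
    rw [hmp.map_eq] at h2
    rw [← h1, h2]
    refine integral_congr_ae (Eventually.of_forall fun u => ?_)
    show F (u * u * (κ l)⁻¹) = F (u * (u * (κ l)⁻¹))
    rw [mul_assoc]
  have key : ∀ l : L, c₀ (κ l) * Real.exp (∑ e, J e * c e (κ l))
        * (∫ x, Real.exp (∑ e, J e * c e x) ∂μ)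
      - (∫ x, c₀ x * Real.exp (∑ e, J e * c e x) ∂μ) * Real.exp (∑ e, J e * c e (κ l))
      = ∫ u, 2 * (s₀ u * s₀ (u * (κ l)⁻¹) *
          Real.exp (∑ e, (2 * J e) * (c e u * c e (u * (κ l)⁻¹)))) ∂μ := by
    intro l
    rw [← integral_const_mul, ← integral_mul_const,
      ← integral_sub ((hH.integrable μ).const_mul _) (((hc0'.mul hH).integrable μ).mul_const _)]
    have hcont : Continuous fun z => c₀ (κ l) * Real.exp (∑ e, J e * c e (κ l))
          * Real.exp (∑ e, J e * c e z)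
        - c₀ z * Real.exp (∑ e, J e * c e z) * Real.exp (∑ e, J e * c e (κ l)) := by
      fun_prop
    rw [hsubst l _ hcont]
    refine integral_congr_ae (Eventually.of_forall fun u => ?_)
    show c₀ (κ l) * Real.exp (∑ e, J e * c e (κ l))
          * Real.exp (∑ e, J e * c e (u * (u * (κ l)⁻¹)))
        - c₀ (u * (u * (κ l)⁻¹)) * Real.exp (∑ e, J e * c e (u * (u * (κ l)⁻¹)))
          * Real.exp (∑ e, J e * c e (κ l)) = _
    have h1 : κ l = u / (u * (κ l)⁻¹) := by
      rw [div_mul_eq_div_div, div_self', one_div, inv_inv]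
    have h2 : Real.exp (∑ e, (2 * J e) * (c e u * c e (u * (κ l)⁻¹)))
        = Real.exp (∑ e, J e * c e (κ l)) * Real.exp (∑ e, J e * c e (u * (u * (κ l)⁻¹))) := by
      rw [← Real.exp_add, ← Finset.sum_add_distrib]
      congr 1
      refine Finset.sum_congr rfl fun e _ => ?_
      have h3 : c e (κ l) = c e u * c e (u * (κ l)⁻¹) + s e u * s e (u * (κ l)⁻¹) := by
        rw [← hsub, ← h1]
      rw [h3, hadd e u (u * (κ l)⁻¹)]
      ring
    have h4 : c₀ (κ l) = c₀ u * c₀ (u * (κ l)⁻¹) + s₀ u * s₀ (u * (κ l)⁻¹) := by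
      rw [← hsub₀, ← h1]
    show _ = 2 * (s₀ u * s₀ (u * (κ l)⁻¹) *
          Real.exp (∑ e, (2 * J e) * (c e u * c e (u * (κ l)⁻¹))))
    rw [h2, h4, hadd₀ u (u * (κ l)⁻¹)]
    ring
  rw [← sub_nonneg, Finset.sum_mul, Finset.mul_sum, ← Finset.sum_sub_distrib]
  simp only [key]
  have hF : BM fun p : G × G => 2 * (s₀ p.1 * s₀ p.2 *
      Real.exp (∑ e, (2 * J e) * (c e p.1 * c e p.2))) :=
    (BM.const 2).mul ((hs0'.fst.mul hs0'.snd).mul
      (BM.sum _ fun e => (BM.const (2 * J e)).mul ((hc' e).fst.mul (hc' e).snd)).exp)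
  have h5 := int_rho μ κ hF
  rw [← h5, integral_const_mul]
  exact mul_nonneg zero_le_two (psd_exp' (rho μ κ) (fun g hg => rho_pos μ κ hκ g hg)
    (fun e => 2 * J e) (fun e => mul_nonneg zero_le_two (hJ e)) c hc' s₀ hs0')

end

end Vale.Agent.P163.Isi
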