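import Vale.Agent.P163.Base
import Vale.Agent.P163.Inv

/-! # P163: the case `n = 1` (Ising model): integrals over `(S 1)^V` are sums over signs -/

namespace Vale.Agent.P163

open MeasureTheory

/-- the two points of the sphere in `R^1` -/
noncomputable def sgn (b : Bool) : S 1 :=
  ⟨EuclideanSpace.single 0 (if b then (1 : ℝ) else -1), by cases b <;> simp⟩

theorem sgn_coe (b : Bool) : (sgn b : E 1) 0 = if b then (1 : ℝ) else -1 := by
  simp [sgn]

theorem sgn_inner (b c : Bool) :
    inner ℝ (sgn b : E 1) (sgn c : E 1) = (if b then (1 : ℝ) else -1) * (if c then 1 else -1) := by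
  rw [PiLp.inner_apply, Fin.sum_univ_one, sgn_coe, sgn_coe]
  simp [mul_comm]

theorem sgn_bij : Function.Bijective sgn := by
  constructor
  · intro b c h
    have h1 : (sgn b : E 1) 0 = (sgn c : E 1) 0 := by rw [h]
    rw [sgn_coe, sgn_coe] at h1
    cases b <;> cases c <;> first | rfl | (exfalso; norm_num at h1)
  · intro s
    have hs : ‖(s : E 1)‖ = 1 := by simp
    rw [EuclideanSpace.norm_eq] at hs
    have h2 : ((s : E 1) 0) * ((s : E 1) 0) = 1 := by
      have := congrArg (fun t => t ^ 2) hs
      simp only [Fin.sum_univ_one, Real.norm_eq_abs, sq_abs, one_pow] at this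
      rw [Real.sq_sqrt (sq_nonneg _)] at this
      rw [← sq]; exact this
    rcases mul_self_eq_one_iff.mp h2 with h | h
    · refine ⟨true, Subtype.ext ?_⟩
      ext i
      fin_cases i
      simp only [Fin.zero_eta, sgn_coe, h, if_true]
    · refine ⟨false, Subtype.ext ?_⟩
      ext i
      fin_cases i
      simp [sgn_coe, h]

noncomputable def sgnE : Bool ≃ S 1 := Equiv.ofBijective sgn sgn_bij

theorem omega_sgn (b : Bool) : omega 1 {sgn b} = 1 / 2 := by
  have hp := omega_prob (n := 1) one_ne_zero
  have hmp := act_mp (n := 1) (LinearIsometryEquiv.neg ℝ)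
  have hact : act (n := 1) (LinearIsometryEquiv.neg ℝ) (sgn true) = sgn false := by
    apply Subtype.ext
    ext i
    fin_cases i
    simp [act, sgn]
  have hinj : Function.Injective (act (n := 1) (LinearIsometryEquiv.neg ℝ)) := by
    intro u v h
    apply Subtype.ext
    have := congrArg Subtype.val h
    simpa [act] using this
  have hpre : act (n := 1) (LinearIsometryEquiv.neg ℝ) ⁻¹' {sgn false} = {sgn true} := by
    ext u
    simp only [Set.mem_preimage, Set.mem_singleton_iff]
    rw [← hact]
    exact hinj.eq_iff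
  have h1 : omega 1 {sgn true} = omega 1 {sgn false} := by
    rw [← hpre]
    exact hmp.measure_preimage (measurableSet_singleton _).nullMeasurableSet
  have h2 : omega 1 {sgn true} + omega 1 {sgn false} = 1 := by
    rw [← measure_union _ (measurableSet_singleton _)]
    · rw [← measure_univ (μ := omega 1)]
      congr 1
      ext u
      obtain ⟨b, rfl⟩ := sgn_bij.2 u
      cases b <;> simp
    · rw [Set.disjoint_singleton]
      intro h
      exact Bool.noConfusion (sgn_bij.1 h)
  rw [h1, ← two_mul] at h2
  have h3 : omega 1 {sgn false} = 1 / 2 := by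
    rw [ENNReal.eq_div_iff (by norm_num) (by norm_num)]
    exact h2
  cases b
  · exact h3
  · rw [h1, h3]

theorem ising_int {V : Type*} [Fintype V] [DecidableEq V] (F : (V → S 1) → ℝ) :
    ∫ s, F s ∂(Om 1 V) = (∑ ε : V → Bool, F (fun a => sgn (ε a))) / 2 ^ Fintype.card V := by
  have hp := omega_prob (n := 1) one_ne_zero
  let _ : Fintype (S 1) := Fintype.ofEquiv Bool sgnE
  have : IsFiniteMeasure (Om 1 V) := by unfold Om; infer_instance
  rw [integral_fintype (Integrable.of_finite)]
  have h1 : ∀ s : V → S 1, (Om 1 V).real {s} = (2 ^ Fintype.card V)⁻¹ := by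
    intro s
    rw [Measure.real, Om, ← Set.univ_pi_singleton, Measure.pi_pi]
    have : ∀ a, omega 1 {s a} = 1 / 2 := by
      intro a
      obtain ⟨b, hb⟩ := sgn_bij.2 (s a)
      rw [← hb]
      exact omega_sgn b
    simp [this]
  simp only [h1, smul_eq_mul]
  rw [← Finset.mul_sum, div_eq_inv_mul]
  congr 1
  exact (Fintype.sum_equiv (Equiv.arrowCongr (Equiv.refl V) sgnE) _ _ fun ε => rfl).symm

end Vale.Agent.P163
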