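import Mathlib
import Vale.Agent.P163.Base
import Vale.Agent.P163.Isi2

/-! # P163: the four-state clock model is a pair of Ising models -/

namespace Vale.Agent.P163

/-- the fourth roots of unity -/
noncomputable def kq (j : ZMod 4) : Circle := (Circle.exp (Real.pi / 2)) ^ j.val

lemma kexp_coe : ((Circle.exp (Real.pi / 2) : Circle) : ℂ) = Complex.I := by
  rw [Circle.coe_exp]
  push_cast
  exact Complex.exp_pi_div_two_mul_I

lemma kexp_four : (Circle.exp (Real.pi / 2)) ^ 4 = 1 := by
  apply Circle.ext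
  rw [Circle.coe_pow, kexp_coe, Complex.I_pow_four, Circle.coe_one]

theorem kq_add (j j' : ZMod 4) : kq (j + j') = kq j * kq j' := by
  unfold kq
  rw [ZMod.val_add, ← pow_add]
  exact (pow_eq_pow_mod _ kexp_four).symm

/-- the bijection -/
def bq : ZMod 4 ≃ Bool × Bool where
  toFun j := (j = 0 ∨ j = 3, j = 0 ∨ j = 1)
  invFun p := if p.1 then (if p.2 then 0 else 3) else (if p.2 then 1 else 2)
  left_inv := by decide
  right_inv := by decide

lemma kq_coe (j : ZMod 4) : (kq j : ℂ) = Complex.I ^ j.val := by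
  rw [kq, Circle.coe_pow, kexp_coe]

lemma cc_kq (j j' : ZMod 4) : cc (kq j) (kq j')
    = ((if (bq j).1 then (1 : ℝ) else -1) * (if (bq j').1 then 1 else -1)
      + (if (bq j).2 then (1 : ℝ) else -1) * (if (bq j').2 then 1 else -1)) / 2 := by
  unfold cc
  rw [kq_coe, kq_coe]
  have h2 : (Complex.I ^ 2) = -1 := Complex.I_sq
  have h3 : (Complex.I ^ 3) = -Complex.I := by
    rw [pow_succ, Complex.I_sq]; ring
  have v0 : (0 : ZMod 4).val = 0 := rfl
  have v1 : (1 : ZMod 4).val = 1 := rfl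
  have v2 : (2 : ZMod 4).val = 2 := rfl
  have v3 : (3 : ZMod 4).val = 3 := rfl
  have e0 : bq 0 = (true, true) := by decide
  have e1 : bq 1 = (false, true) := by decide
  have e2 : bq 2 = (false, false) := by decide
  have e3 : bq 3 = (true, false) := by decide
  have hall : ∀ j : ZMod 4, j = 0 ∨ j = 1 ∨ j = 2 ∨ j = 3 := by decide
  rcases hall j with rfl | rfl | rfl | rfl <;> rcases hall j' with rfl | rfl | rfl | rfl <;>
    simp [v0, v1, v2, v3, e0, e1, e2, e3, h2, h3]

/-- configurations of the clock model are pairs of spin configurations -/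
def bV (V : Type*) : (V → ZMod 4) ≃ (V → Bool) × (V → Bool) where
  toFun l := (fun a => (bq (l a)).1, fun a => (bq (l a)).2)
  invFun p a := bq.symm (p.1 a, p.2 a)
  left_inv l := by
    funext a
    simp
  right_inv p := by
    simp

variable {V : Type*} [Fintype V]

lemma cc_kq' (l : V → ZMod 4) (a b : V) : cc (kq (l a)) (kq (l b))
    = (inner ℝ (sgn ((bV V l).1 a) : E 1) (sgn ((bV V l).1 b) : E 1)
      + inner ℝ (sgn ((bV V l).2 a) : E 1) (sgn ((bV V l).2 b) : E 1)) / 2 := by
  rw [cc_kq, sgn_inner, sgn_inner]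
  rfl

lemma hXY_kq (J : V → V → ℝ) (l : V → ZMod 4) :
    hXY J (fun a => kq (l a)) = ham (fun a b => J a b / 2) (fun a => sgn ((bV V l).1 a))
      + ham (fun a b => J a b / 2) (fun a => sgn ((bV V l).2 a)) := by
  unfold hXY ham
  rw [← Finset.sum_add_distrib]
  refine Finset.sum_congr rfl fun a _ => ?_
  rw [← Finset.sum_add_distrib]
  refine Finset.sum_congr rfl fun b _ => ?_
  rw [cc_kq']
  ring

/-- Ising Hamiltonian of a sign configuration -/
noncomputable def hI (J : V → V → ℝ) (ε : V → Bool) : ℝ :=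
  ham (fun a b => J a b / 2) (fun a => sgn (ε a))

variable [DecidableEq V]

theorem clock_den (J : V → V → ℝ) :
    (∑ l : V → ZMod 4, Real.exp (hXY J (fun a => kq (l a))))
      = (∑ ε : V → Bool, Real.exp (hI J ε)) ^ 2 := by
  have h1 : ∀ l : V → ZMod 4, Real.exp (hXY J (fun a => kq (l a)))
      = (fun p : (V → Bool) × (V → Bool) => Real.exp (hI J p.1) * Real.exp (hI J p.2)) (bV V l) := by
    intro l
    rw [hXY_kq, Real.exp_add]
    rfl
  refine (Finset.sum_congr rfl fun l _ => h1 l).trans (((bV V).sum_comp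
    (fun p : (V → Bool) × (V → Bool) => Real.exp (hI J p.1) * Real.exp (hI J p.2))).trans ?_)
  rw [Fintype.sum_prod_type, sq, Finset.sum_mul_sum]

theorem clock_num (J : V → V → ℝ) (x y : V) :
    (∑ l : V → ZMod 4, cc (kq (l x)) (kq (l y)) * Real.exp (hXY J (fun a => kq (l a))))
      = (∑ ε : V → Bool, inner ℝ (sgn (ε x) : E 1) (sgn (ε y) : E 1) * Real.exp (hI J ε))
        * ∑ ε : V → Bool, Real.exp (hI J ε) := by
  set f : (V → Bool) → ℝ := fun ε => inner ℝ (sgn (ε x) : E 1) (sgn (ε y) : E 1)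
    * Real.exp (hI J ε) with hf
  set g : (V → Bool) → ℝ := fun ε => Real.exp (hI J ε) with hg
  have h1 : ∀ l : V → ZMod 4, cc (kq (l x)) (kq (l y)) * Real.exp (hXY J (fun a => kq (l a)))
      = (fun p : (V → Bool) × (V → Bool) => (f p.1 * g p.2 + g p.1 * f p.2) / 2) (bV V l) := by
    intro l
    rw [hXY_kq, Real.exp_add, cc_kq']
    show _ = (f (bV V l).1 * g (bV V l).2 + g (bV V l).1 * f (bV V l).2) / 2
    simp only [hf, hg, hI]
    ring
  refine (Finset.sum_congr rfl fun l _ => h1 l).trans (((bV V).sum_comp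
    (fun p : (V → Bool) × (V → Bool) => (f p.1 * g p.2 + g p.1 * f p.2) / 2)).trans ?_)
  rw [Fintype.sum_prod_type]
  have h2 : ∀ ε : V → Bool, ∑ τ : V → Bool, (f ε * g τ + g ε * f τ) / 2
      = (f ε * ∑ τ, g τ + g ε * ∑ τ, f τ) / 2 := by
    intro ε
    rw [← Finset.sum_div, Finset.sum_add_distrib, Finset.mul_sum, Finset.mul_sum]
  simp only [h2]
  rw [← Finset.sum_div, Finset.sum_add_distrib, ← Finset.sum_mul, ← Finset.sum_mul]
  ring

end Vale.Agent.P163
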