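import Mathlib
import Vale.Agent.P163.Isi
import Vale.Agent.P163.Isi2
import Vale.Agent.P163.Isi3

/-! # P163: the XY model is below the Ising model at half the coupling -/

open MeasureTheory

namespace Vale.Agent.P163

variable {V : Type*} [Fintype V]

theorem isi (J : V → V → ℝ) (h0 : ∀ a b, 0 ≤ J a b) (x y : V) :
    XN J x y * Zn 1 (fun a b => J a b / 2) ≤
      XZ J * ∫ s : V → S 1, inner ℝ (s x : E 1) (s y : E 1) *
        Real.exp (ham (fun a b => J a b / 2) s) ∂(Om 1 V) := by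
  classical
  have h0' := Isi.clock (haarV V) sq_surj (L := V → ZMod 4) (fun l a => kq (l a))
    (fun l m => funext fun a => kq_add (l a) (m a))
    (E := V × V) (fun e z => cc (z e.1) (z e.2))
    (fun e z => ss (z e.1) (z e.2)) (fun e => cc_cont _ _)
    (fun e u v => cc_sub _ _ u v) (fun e u v => cc_add _ _ u v)
    (fun z => cc (z x) (z y)) (fun z => ss (z x) (z y)) (cc_cont _ _) (ss_cont _ _)
    (fun u v => cc_sub _ _ u v) (fun u v => cc_add _ _ u v)
    (fun e => J e.1 e.2) (fun e => h0 _ _)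
  have h1 : XN J x y * (∑ l : V → ZMod 4, Real.exp (hXY J (fun a => kq (l a))))
      ≤ (∑ l : V → ZMod 4, cc (kq (l x)) (kq (l y)) * Real.exp (hXY J (fun a => kq (l a))))
        * XZ J := by
    simpa only [XN, XZ, hXY_eq] using h0'
  rw [clock_den, clock_num] at h1
  have h2 : Zn 1 (fun a b => J a b / 2)
      = (∑ ε : V → Bool, Real.exp (hI J ε)) / 2 ^ Fintype.card V := by
    unfold Zn
    rw [ising_int]
    rfl
  rw [h2, ising_int]
  have hpos : 0 < ∑ ε : V → Bool, Real.exp (hI J ε) :=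
    Finset.sum_pos (fun _ _ => Real.exp_pos _) ⟨fun _ => true, Finset.mem_univ _⟩
  have h3 : XN J x y * (∑ ε : V → Bool, Real.exp (hI J ε))
      ≤ (∑ ε : V → Bool, inner ℝ (sgn (ε x) : E 1) (sgn (ε y) : E 1) * Real.exp (hI J ε))
        * XZ J := by
    have h4 : (XN J x y * (∑ ε : V → Bool, Real.exp (hI J ε)))
        * (∑ ε : V → Bool, Real.exp (hI J ε))
        ≤ ((∑ ε : V → Bool, inner ℝ (sgn (ε x) : E 1) (sgn (ε y) : E 1) * Real.exp (hI J ε))
        * XZ J) * (∑ ε : V → Bool, Real.exp (hI J ε)) := by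
      have h5 : XN J x y * (∑ ε : V → Bool, Real.exp (hI J ε)) ^ 2
        ≤ (∑ ε : V → Bool, inner ℝ (sgn (ε x) : E 1) (sgn (ε y) : E 1) * Real.exp (hI J ε))
        * (∑ ε : V → Bool, Real.exp (hI J ε)) * XZ J := h1
      calc _ = XN J x y * (∑ ε : V → Bool, Real.exp (hI J ε)) ^ 2 := by ring
        _ ≤ _ := h5
        _ = _ := by ring
    exact le_of_mul_le_mul_right h4 hpos
  have h6 : (0 : ℝ) < 2 ^ Fintype.card V := by positivity
  calc XN J x y * ((∑ ε : V → Bool, Real.exp (hI J ε)) / 2 ^ Fintype.card V)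
      = (XN J x y * (∑ ε : V → Bool, Real.exp (hI J ε))) / 2 ^ Fintype.card V := by ring
    _ ≤ ((∑ ε : V → Bool, inner ℝ (sgn (ε x) : E 1) (sgn (ε y) : E 1) * Real.exp (hI J ε))
        * XZ J) / 2 ^ Fintype.card V := div_le_div_of_nonneg_right h3 h6.le
    _ = XZ J * ((∑ ε : V → Bool, inner ℝ (sgn (ε x) : E 1) (sgn (ε y) : E 1) *
        Real.exp (hI J ε)) / 2 ^ Fintype.card V) := by ring

end Vale.Agent.P163
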