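import Vale.Agent.P163.States
import Vale.Agent.P163.Inv

/-! # P163: comparison of infinite-volume states -/

namespace Vale.Agent.P163

open MeasureTheory Filter Topology

section gibbs

variable {V : Type*} [Fintype V]

theorem ham_cont {n : ℕ} (J : V → V → ℝ) : Continuous (fun s : V → S n => ham J s) := by
  unfold ham
  refine continuous_finset_sum _ fun a _ => continuous_finset_sum _ fun b _ => ?_
  exact continuous_const.mul ((continuous_subtype_val.comp (continuous_apply a)).inner
    (continuous_subtype_val.comp (continuous_apply b)))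

theorem Om_prob {n : ℕ} (hn : n ≠ 0) : IsProbabilityMeasure (Om n V) := by
  have := omega_prob hn
  unfold Om
  infer_instance

theorem int_of_cont {n : ℕ} (hn : n ≠ 0) {f : (V → S n) → ℝ} (hf : Continuous f) :
    Integrable f (Om n V) := by
  have := Om_prob (V := V) hn
  exact hf.integrable_of_hasCompactSupport (HasCompactSupport.of_compactSpace f)

theorem Zn_pos' {n : ℕ} (hn : n ≠ 0) (J : V → V → ℝ) : 0 < Zn n J := by
  have := Om_prob (V := V) hn
  unfold Zn
  exact integral_exp_pos (int_of_cont hn (Real.continuous_exp.comp (ham_cont J)))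

/-- the Gibbs measure -/
noncomputable def gibbs (n : ℕ) (J : V → V → ℝ) : Measure (V → S n) :=
  (Om n V).withDensity fun s => ENNReal.ofReal (Real.exp (ham J s) / Zn n J)

theorem integral_gibbs {n : ℕ} (hn : n ≠ 0) (J : V → V → ℝ) (f : (V → S n) → ℝ) :
    ∫ s, f s ∂(gibbs n J) = ev n J f := by
  have hm : Measurable fun s : V → S n => Real.exp (ham J s) / Zn n J :=
    ((Real.continuous_exp.comp (ham_cont J)).div_const _).measurable
  unfold gibbs ev
  rw [integral_withDensity_eq_integral_toReal_smul hm.ennreal_ofReal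
    (Filter.Eventually.of_forall fun s => ENNReal.ofReal_lt_top)]
  rw [← integral_div]
  refine integral_congr_ae (Filter.Eventually.of_forall fun s => ?_)
  have hZ := Zn_pos' hn J
  have : (ENNReal.ofReal (Real.exp (ham J s) / Zn n J)).toReal = Real.exp (ham J s) / Zn n J :=
    ENNReal.toReal_ofReal (by positivity)
  simp only [this, smul_eq_mul]
  ring

theorem gibbs_prob {n : ℕ} (hn : n ≠ 0) (J : V → V → ℝ) : IsProbabilityMeasure (gibbs n J) := by
  constructor
  have hZ := Zn_pos' hn J
  unfold gibbs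
  rw [withDensity_apply _ MeasurableSet.univ, Measure.restrict_univ,
    ← ofReal_integral_eq_lintegral_ofReal, integral_div]
  · change ENNReal.ofReal (Zn n J / Zn n J) = 1
    rw [div_self hZ.ne', ENNReal.ofReal_one]
  · exact (int_of_cont hn (Real.continuous_exp.comp (ham_cont J))).div_const _
  · exact Filter.Eventually.of_forall fun s => by positivity

end gibbs

/-- the lift of a Gibbs measure to configurations on `Z^2` -/
noncomputable def liftG (n : ℕ) (v : Vol) (β : ℝ) : Measure (ℤ × ℤ → S n) :=
  (gibbs n (v.J β)).map fun s a => s (v.site a)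

theorem lift_cont {n : ℕ} (v : Vol) : Continuous fun (s : v.V → S n) (a : ℤ × ℤ) => s (v.site a) :=
  continuous_pi fun a => continuous_apply (v.site a)

theorem liftG_prob {n : ℕ} (hn : n ≠ 0) (v : Vol) (β : ℝ) : IsProbabilityMeasure (liftG n v β) := by
  have := gibbs_prob hn (v.J β)
  exact Measure.isProbabilityMeasure_map (lift_cont v).measurable.aemeasurable

theorem integral_liftG {n : ℕ} (hn : n ≠ 0) (v : Vol) (β : ℝ) {f : (ℤ × ℤ → S n) → ℝ}
    (hf : Continuous f) :
    ∫ t, f t ∂(liftG n v β) = ev n (v.J β) (fun s => f (fun a => s (v.site a))) := by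
  unfold liftG
  rw [integral_map (lift_cont v).measurable.aemeasurable hf.aestronglyMeasurable,
    integral_gibbs hn]

theorem states_compare
    (compare : ∀ (V : Type) [Fintype V] (k : ℕ) (J J' : V → V → ℝ), (∀ a b, 0 ≤ J a b) →
      (∀ a b, J a b ≤ J' a b) → ∀ x y : V,
        0 ≤ corr (k + 2) J x y ∧ corr (k + 2) J x y ≤ corr 2 J' x y)
    (k : ℕ) (β β' : ℝ) (h0 : 0 ≤ β) (h : β ≤ β') (μ : Measure (ℤ × ℤ → S (k + 2)))
    (hμ : IsState (k + 2) β μ) :
    ∃ μ' : Measure (ℤ × ℤ → S 2), IsState 2 β' μ' ∧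
      ∀ x y, 0 ≤ tp μ x y ∧ tp μ x y ≤ tp μ' x y := by
  obtain ⟨hp, v, hG, hT⟩ := hμ
  let P : ℕ → ProbabilityMeasure (ℤ × ℤ → S 2) := fun j =>
    ⟨liftG 2 (v j) β', liftG_prob (by norm_num) (v j) β'⟩
  obtain ⟨Q, φ, hφ, hQ⟩ := CompactSpace.tendsto_subseq P
  have hpair : ∀ (n : ℕ) (x y : ℤ × ℤ), Continuous fun t : ℤ × ℤ → S n =>
      (inner ℝ (t x : E n) (t y : E n) : ℝ) := fun n x y =>
    (continuous_subtype_val.comp (continuous_apply x)).inner
      (continuous_subtype_val.comp (continuous_apply y))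
  have hQ' : ∀ f : (ℤ × ℤ → S 2) → ℝ, Continuous f →
      Tendsto (fun j => ev 2 ((v (φ j)).J β') (fun s => f (fun a => s ((v (φ j)).site a)))) atTop
        (𝓝 (∫ t, f t ∂(Q : Measure (ℤ × ℤ → S 2)))) := by
    intro f hf
    have := (ProbabilityMeasure.tendsto_iff_forall_integral_tendsto.mp hQ)
      (BoundedContinuousFunction.mkOfCompact ⟨f, hf⟩)
    refine this.congr fun j => ?_
    exact integral_liftG (by norm_num) (v (φ j)) β' hf
  refine ⟨Q, ⟨inferInstance, fun j => v (φ j), ?_, hQ'⟩, fun x y => ?_⟩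
  · intro N
    exact hφ.tendsto_atTop.eventually (hG N)
  · have h1 := hT _ (hpair (k + 2) x y)
    have h2 := hQ' _ (hpair 2 x y)
    have hc : ∀ j, 0 ≤ corr (k + 2) ((v j).J β) ((v j).site x) ((v j).site y) ∧
        corr (k + 2) ((v j).J β) ((v j).site x) ((v j).site y) ≤
          corr 2 ((v j).J β') ((v j).site x) ((v j).site y) := by
      intro j
      refine compare (v j).V k ((v j).J β) ((v j).J β') ?_ ?_ _ _
      · intro a b
        unfold Vol.J
        split_ifs <;> linarith
      · intro a b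
        unfold Vol.J
        split_ifs <;> linarith
    constructor
    · exact ge_of_tendsto' h1 fun j => (hc j).1
    · exact le_of_tendsto_of_tendsto' (h1.comp hφ.tendsto_atTop) h2 fun j => (hc (φ j)).2

end Vale.Agent.P163
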