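import Mathlib
import Vale.Agent.P163.Base
import Vale.Agent.P163.Inv
import Vale.Agent.P163.Rot

/-! # P163, row SYM -/

namespace Vale.Agent.P163

open MeasureTheory

variable {V : Type*} [Fintype V]

namespace SymAux

open RotAux

/-- the permutation of coordinates -/
noncomputable def pm {n : ℕ} (σ : Equiv.Perm (Fin n)) : E n ≃ₗᵢ[ℝ] E n :=
  LinearIsometryEquiv.piLpCongrLeft 2 ℝ ℝ σ

lemma pm_apply {n : ℕ} (σ : Equiv.Perm (Fin n)) (v : E n) (i : Fin n) :
    pm σ v i = v (σ.symm i) := by
  simp [pm]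

lemma inv_int {n : ℕ} (hn : n ≠ 0) (R : E n ≃ₗᵢ[ℝ] E n) (F : (V → S n) → ℝ) (hF : Continuous F) :
    ∫ s, F (fun a => act R (s a)) ∂(Om n V) = ∫ s, F s ∂(Om n V) := by
  have hmp := actV_mp (V := V) hn (fun _ => R)
  have h2 := integral_map (μ := Om n V) (φ := fun (s : V → S n) a =>
    act R (s a)) hmp.measurable.aemeasurable (f := F) hF.aestronglyMeasurable
  rw [hmp.map_eq] at h2
  exact h2.symm

lemma ham_act {n : ℕ} (R : E n ≃ₗᵢ[ℝ] E n) (J : V → V → ℝ) (s : V → S n) :
    ham J (fun a => act R (s a)) = ham J s := by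
  unfold ham
  refine Finset.sum_congr rfl fun a _ => Finset.sum_congr rfl fun b _ => ?_
  congr 1
  exact R.inner_map_map (s a : E n) (s b : E n)

/-- the coordinate integrals -/
noncomputable def I {n : ℕ} (J : V → V → ℝ) (x y : V) (i : Fin n) : ℝ :=
  ∫ s : V → S n, (s x : E n) i * (s y : E n) i * Real.exp (ham J s) ∂(Om n V)

lemma co_cont {n : ℕ} (J : V → V → ℝ) (x y : V) (i : Fin n) :
    Continuous fun s : V → S n => (s x : E n) i * (s y : E n) i * Real.exp (ham J s) := by
  have h1 : ∀ a : V, Continuous fun s : V → S n => (s a : E n) i := by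
    intro a
    have h2 : Continuous fun s : V → S n => (s a : E n) :=
      continuous_subtype_val.comp (continuous_apply a)
    fun_prop
  exact ((h1 x).mul (h1 y)).mul (Real.continuous_exp.comp (ham_cont J))

lemma I_eq {n : ℕ} (hn : n ≠ 0) (J : V → V → ℝ) (x y : V) (i j : Fin n) :
    I J x y i = I J x y j := by
  have h := inv_int (V := V) hn (pm (Equiv.swap i j)) _ (co_cont J x y j)
  unfold I
  rw [← h]
  refine integral_congr_ae (Filter.Eventually.of_forall fun s => ?_)
  simp only [ham_act]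
  have h1 : ∀ a : V, ((act (pm (Equiv.swap i j)) (s a) : S n) : E n) j = (s a : E n) i := by
    intro a
    show pm (Equiv.swap i j) (s a : E n) j = (s a : E n) i
    rw [pm_apply, Equiv.symm_swap, Equiv.swap_apply_right]
  rw [h1, h1]

lemma sum_I {n : ℕ} (hn : n ≠ 0) (J : V → V → ℝ) (x y : V) :
    ∫ s : V → S n, inner ℝ (s x : E n) (s y : E n) * Real.exp (ham J s) ∂(Om n V)
      = ∑ i : Fin n, I J x y i := by
  have := omega_prob (n := n) hn
  have : IsProbabilityMeasure (Om n V) := by unfold Om; infer_instance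
  unfold I
  rw [← integral_finsetSum]
  · refine integral_congr_ae (Filter.Eventually.of_forall fun s => ?_)
    show inner ℝ (s x : E n) (s y : E n) * Real.exp (ham J s) = _
    rw [PiLp.inner_apply, Finset.sum_mul]
    refine Finset.sum_congr rfl fun i _ => ?_
    congr 1
    simp [mul_comm]
  · intro i _
    exact (Gin.bm_of_continuous' (co_cont J x y i)).integrable _

lemma two_I (k : ℕ) (J : V → V → ℝ) (x y : V) :
    ∫ s : V → S (k + 2), (zet (s x : E (k + 2)) *
        (starRingEnd ℂ) (zet (s y : E (k + 2)))).re * Real.exp (ham J s) ∂(Om (k + 2) V)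
      = I J x y (0 : Fin (k + 2)) + I J x y (1 : Fin (k + 2)) := by
  have := omega_prob (n := k + 2) (by omega)
  have : IsProbabilityMeasure (Om (k + 2) V) := by unfold Om; infer_instance
  unfold I
  rw [← integral_add ((Gin.bm_of_continuous' (co_cont J x y _)).integrable _)
    ((Gin.bm_of_continuous' (co_cont J x y _)).integrable _)]
  refine integral_congr_ae (Filter.Eventually.of_forall fun s => ?_)
  simp only [zet, Complex.mul_re, Complex.conj_re, Complex.conj_im]
  ring

end SymAux

open SymAux RotAux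

theorem sym_num (k : ℕ) (J : V → V → ℝ) (x y : V) :
    ((k : ℝ) + 2) * ∫ s : V → S (k + 2), (zet (s x : E (k + 2)) *
        (starRingEnd ℂ) (zet (s y : E (k + 2)))).re * Real.exp (ham J s) ∂(Om (k + 2) V) =
      2 * ∫ s : V → S (k + 2), inner ℝ (s x : E (k + 2)) (s y : E (k + 2)) *
        Real.exp (ham J s) ∂(Om (k + 2) V) := by
  rw [two_I, sum_I (by omega)]
  have h : ∀ i : Fin (k + 2), I J x y i = I J x y 0 := fun i => I_eq (by omega) J x y i 0
  rw [Finset.sum_congr rfl fun i _ => h i, h 1]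
  simp only [Finset.sum_const, Finset.card_univ, Fintype.card_fin, nsmul_eq_mul]
  push_cast
  ring

theorem Zn_pos (n : ℕ) (hn : n ≠ 0) (J : V → V → ℝ) : 0 < Zn n J := by
  have := omega_prob (n := n) hn
  have : IsProbabilityMeasure (Om n V) := by unfold Om; infer_instance
  unfold Zn
  refine integral_exp_pos ?_
  exact (Gin.bm_of_continuous' (Real.continuous_exp.comp (ham_cont J))).integrable _

theorem sym_rad (k : ℕ) (J : V → V → ℝ) (x y : V) :
    ((k : ℝ) + 2) * ∫ s : V → S (k + 2), ‖zet (s x : E (k + 2))‖ * ‖zet (s y : E (k + 2))‖ *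
        Real.exp (ham J s) ∂(Om (k + 2) V) ≤ 2 * Zn (k + 2) J := by
  have := omega_prob (n := k + 2) (by omega)
  have : IsProbabilityMeasure (Om (k + 2) V) := by unfold Om; infer_instance
  have hself : ∀ w : V, ∫ s : V → S (k + 2), inner ℝ (s w : E (k + 2)) (s w : E (k + 2)) *
        Real.exp (ham J s) ∂(Om (k + 2) V) = Zn (k + 2) J := by
    intro w
    unfold Zn
    refine integral_congr_ae (Filter.Eventually.of_forall fun s => ?_)
    have h1 : ‖(s w : E (k + 2))‖ = 1 := by simp
    show inner ℝ (s w : E (k + 2)) (s w : E (k + 2)) * Real.exp (ham J s) = Real.exp (ham J s)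
    rw [real_inner_self_eq_norm_sq, h1]
    ring
  have hx := sym_num k J x x
  have hy := sym_num k J y y
  rw [hself] at hx hy
  have hi : ∀ w : V, Integrable (fun s : V → S (k + 2) => (zet (s w : E (k + 2)) *
        (starRingEnd ℂ) (zet (s w : E (k + 2)))).re * Real.exp (ham J s)) (Om (k + 2) V) :=
    fun w => (Gin.bm_of_continuous' (num_cont k J w w)).integrable _
  have hle : ∫ s : V → S (k + 2), ‖zet (s x : E (k + 2))‖ * ‖zet (s y : E (k + 2))‖ *
        Real.exp (ham J s) ∂(Om (k + 2) V)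
      ≤ (1 / 2) * ((∫ s : V → S (k + 2), (zet (s x : E (k + 2)) *
        (starRingEnd ℂ) (zet (s x : E (k + 2)))).re * Real.exp (ham J s) ∂(Om (k + 2) V))
        + ∫ s : V → S (k + 2), (zet (s y : E (k + 2)) *
        (starRingEnd ℂ) (zet (s y : E (k + 2)))).re * Real.exp (ham J s) ∂(Om (k + 2) V)) := by
    rw [← integral_add (hi x) (hi y), ← integral_const_mul]
    refine integral_mono ((Gin.bm_of_continuous' (rad_cont k J x y)).integrable _)
      (((hi x).add (hi y)).const_mul _) fun s => ?_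
    show ‖zet (s x : E (k + 2))‖ * ‖zet (s y : E (k + 2))‖ * Real.exp (ham J s)
      ≤ 1 / 2 * ((zet (s x : E (k + 2)) * (starRingEnd ℂ) (zet (s x : E (k + 2)))).re
          * Real.exp (ham J s)
        + (zet (s y : E (k + 2)) * (starRingEnd ℂ) (zet (s y : E (k + 2)))).re
          * Real.exp (ham J s))
    rw [Complex.mul_conj, Complex.mul_conj, Complex.ofReal_re, Complex.ofReal_re,
      Complex.normSq_eq_norm_sq, Complex.normSq_eq_norm_sq]
    have he := Real.exp_pos (ham J s)
    have h2 : ‖zet (s x : E (k + 2))‖ * ‖zet (s y : E (k + 2))‖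
        ≤ 1 / 2 * (‖zet (s x : E (k + 2))‖ ^ 2 + ‖zet (s y : E (k + 2))‖ ^ 2) := by
      nlinarith [sq_nonneg (‖zet (s x : E (k + 2))‖ - ‖zet (s y : E (k + 2))‖)]
    calc _ ≤ 1 / 2 * (‖zet (s x : E (k + 2))‖ ^ 2 + ‖zet (s y : E (k + 2))‖ ^ 2)
          * Real.exp (ham J s) := mul_le_mul_of_nonneg_right h2 he.le
      _ = _ := by ring
  have hk : (0 : ℝ) ≤ (k : ℝ) + 2 := by positivity
  have h3 := mul_le_mul_of_nonneg_left hle hk
  linarith

end Vale.Agent.P163
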