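import Vale.Agent.P163.Rot
import Vale.Agent.P163.Sym
import Vale.Agent.P163.StateCmp

/-! # P163: the comparison of the O(n) model with the XY model -/

namespace Vale.Agent.P163

open MeasureTheory

variable {V : Type*} [Fintype V]

theorem compare (k : ℕ) (J J' : V → V → ℝ) (h0 : ∀ a b, 0 ≤ J a b) (h : ∀ a b, J a b ≤ J' a b)
    (x y : V) : 0 ≤ corr (k + 2) J x y ∧ corr (k + 2) J x y ≤ corr 2 J' x y := by
  have hZ := Zn_pos (k + 2) (by omega) J
  have hX := XZ_pos J
  have hX' := XZ_pos J'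
  have h1 := rot k J h0 x y
  have h2 := sym_num k J x y
  have h3 := sym_rad k J x y
  have h4 := rot_nonneg k J h0 x y
  have h5 := gin0 J h0 x y
  have h6 := gin J J' h0 h x y
  have hk : (0 : ℝ) < (k : ℝ) + 2 := by positivity
  unfold corr ev
  rw [two_num, two_den]
  set A := ∫ s : V → S (k + 2), (zet (s x : E (k + 2)) *
        (starRingEnd ℂ) (zet (s y : E (k + 2)))).re * Real.exp (ham J s) ∂(Om (k + 2) V) with hA
  set B := ∫ s : V → S (k + 2), inner ℝ (s x : E (k + 2)) (s y : E (k + 2)) *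
        Real.exp (ham J s) ∂(Om (k + 2) V) with hB
  set C := ∫ s : V → S (k + 2), ‖zet (s x : E (k + 2))‖ * ‖zet (s y : E (k + 2))‖ *
        Real.exp (ham J s) ∂(Om (k + 2) V) with hC
  have hB0 : 0 ≤ B := by nlinarith
  refine ⟨div_nonneg hB0 hZ.le, ?_⟩
  have h7 : B / Zn (k + 2) J ≤ XN J x y / XZ J := by
    rw [div_le_div_iff₀ hZ hX]
    nlinarith [mul_le_mul_of_nonneg_left h1 hk.le, mul_le_mul_of_nonneg_left h3 h5]
  refine h7.trans ?_
  rw [div_le_div_iff₀ hX hX']
  exact h6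

end Vale.Agent.P163
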