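import Vale.Agent.P163.StateCmp

/-! # P163: comparison of infinite-volume states, general form -/

namespace Vale.Agent.P163

open MeasureTheory Filter Topology

/-- If on every finite volume the two-point function of the O(n) model at `β` is bounded by that
of the O(n') model at `β'`, then every sequence of volumes which gives an O(n) state has a
subsequence which gives a dominating O(n') state. -/
theorem states_gen (n n' : ℕ) (hn' : n' ≠ 0) (β β' : ℝ)
    (hc : ∀ (v : Vol) (x y : v.V), corr n (v.J β) x y ≤ corr n' (v.J β') x y)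
    (μ : Measure (ℤ × ℤ → S n)) (hμ : IsState n β μ) :
    ∃ μ' : Measure (ℤ × ℤ → S n'), IsState n' β' μ' ∧ ∀ x y, tp μ x y ≤ tp μ' x y := by
  obtain ⟨hp, v, hG, hT⟩ := hμ
  let P : ℕ → ProbabilityMeasure (ℤ × ℤ → S n') := fun j =>
    ⟨liftG n' (v j) β', liftG_prob hn' (v j) β'⟩
  obtain ⟨Q, φ, hφ, hQ⟩ := CompactSpace.tendsto_subseq P
  have hpair : ∀ (n : ℕ) (x y : ℤ × ℤ), Continuous fun t : ℤ × ℤ → S n =>
      (inner ℝ (t x : E n) (t y : E n) : ℝ) := fun n x y =>
    (continuous_subtype_val.comp (continuous_apply x)).inner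
      (continuous_subtype_val.comp (continuous_apply y))
  have hQ' : ∀ f : (ℤ × ℤ → S n') → ℝ, Continuous f →
      Tendsto (fun j => ev n' ((v (φ j)).J β') (fun s => f (fun a => s ((v (φ j)).site a)))) atTop
        (𝓝 (∫ t, f t ∂(Q : Measure (ℤ × ℤ → S n')))) := by
    intro f hf
    have := (ProbabilityMeasure.tendsto_iff_forall_integral_tendsto.mp hQ)
      (BoundedContinuousFunction.mkOfCompact ⟨f, hf⟩)
    refine this.congr fun j => ?_
    exact integral_liftG hn' (v (φ j)) β' hf
  refine ⟨Q, ⟨inferInstance, fun j => v (φ j), ?_, hQ'⟩, fun x y => ?_⟩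
  · intro N
    exact hφ.tendsto_atTop.eventually (hG N)
  · have h1 := hT _ (hpair n x y)
    have h2 := hQ' _ (hpair n' x y)
    exact le_of_tendsto_of_tendsto' (h1.comp hφ.tendsto_atTop) h2 fun j => hc (v (φ j)) _ _

theorem J_half (v : Vol) (β : ℝ) : (fun a b => v.J β a b / 2) = v.J (β / 2) := by
  funext a b
  unfold Vol.J
  split_ifs <;> simp

end Vale.Agent.P163
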