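import Vale.Agent.P163.Defs

/-! # P163: infinite-volume states of the O(n) model on `Z^2` -/

namespace Vale.Agent.P163

open MeasureTheory Filter Topology

/-- A finite volume: a finite set of sites, the relation of being nearest neighbours, and the
site of the volume which carries the spin seen at the point `a` of `Z^2`. -/
structure Vol where
  /-- the sites -/
  V : Type
  /-- finitely many sites -/
  fin : Fintype V
  /-- nearest neighbours -/
  adj : V → V → Prop
  /-- the site which represents a point of `Z^2` -/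
  site : ℤ × ℤ → V

instance (v : Vol) : Fintype v.V := v.fin

/-- The rectangle `[a, b] x [c, d]` of `Z^2` with free boundary conditions. Points outside the
rectangle are represented by the corner `(a, c)`; this plays no role in the limit. -/
noncomputable def Vol.free (a b c d : ℤ) (h : a ≤ b) (h' : c ≤ d) : Vol where
  V := {p : ℤ × ℤ // p ∈ Finset.Icc a b ×ˢ Finset.Icc c d}
  fin := inferInstance
  adj p q := (p.1.1 - q.1.1) ^ 2 + (p.1.2 - q.1.2) ^ 2 = 1
  site p := if hp : p ∈ Finset.Icc a b ×ˢ Finset.Icc c d then ⟨p, hp⟩ else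
    ⟨(a, c), by simp [h, h']⟩

/-- The torus with `L + 3` times `M + 3` sites (periodic boundary conditions). -/
noncomputable def Vol.torus (L M : ℕ) : Vol where
  V := ZMod (L + 3) × ZMod (M + 3)
  fin := inferInstance
  adj p q := (p.1 = q.1 ∧ (p.2 = q.2 + 1 ∨ q.2 = p.2 + 1)) ∨
    (p.2 = q.2 ∧ (p.1 = q.1 + 1 ∨ q.1 = p.1 + 1))
  site p := (p.1, p.2)

/-- The coupling of the O(n) model at inverse temperature `beta`: every bond occurs twice in the
sum over ordered pairs in `ham`, each time with the coefficient `beta / 2`. -/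
noncomputable def Vol.J (v : Vol) (β : ℝ) (a b : v.V) : ℝ := by
  classical exact if v.adj a b then β / 2 else 0

/-- `v` is a sequence of rectangles with free boundary conditions or tori which grows to
`Z^2`. -/
def Grows (v : ℕ → Vol) : Prop :=
  ∀ N : ℕ, ∀ᶠ k in atTop,
    (∃ (a b c d : ℤ) (h : a ≤ b) (h' : c ≤ d), a ≤ -N ∧ N ≤ b ∧ c ≤ -N ∧ N ≤ d ∧
      v k = Vol.free a b c d h h') ∨
    ∃ L M : ℕ, N ≤ L ∧ N ≤ M ∧ v k = Vol.torus L M

/-- `mu` is an infinite-volume state of the O(n) model at inverse temperature `beta`: a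
probability measure on the configurations on `Z^2` which is a (local) weak limit of the finite
volume measures along a sequence of volumes that grows to `Z^2`. -/
def IsState (n : ℕ) (β : ℝ) (μ : Measure (ℤ × ℤ → S n)) : Prop :=
  IsProbabilityMeasure μ ∧ ∃ v : ℕ → Vol, Grows v ∧
    ∀ f : (ℤ × ℤ → S n) → ℝ, Continuous f →
      Tendsto (fun k => ev n ((v k).J β) (fun s => f (fun a => s ((v k).site a)))) atTop
        (𝓝 (∫ t, f t ∂μ))

/-- the two-point function `<s_x . s_y>` of the measure `mu` -/
noncomputable def tp {n : ℕ} (μ : Measure (ℤ × ℤ → S n)) (x y : ℤ × ℤ) : ℝ :=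
  ∫ t, inner ℝ (t x : E n) (t y : E n) ∂μ

end Vale.Agent.P163
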